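import Vale.Agent.P088.H952.Tr

/-!
# P088, row CF_ROT: the estimate for every real unit vector `q ⊥ ξ`
-/

open MeasureTheory Set
open scoped ContDiff Matrix

noncomputable section

namespace Vale.Agent.P088.LR.CF.H952

open Vale.Agent.P088.LR Vale.Agent.P088.LR.CF

variable {n : ℕ}

theorem cl_nonneg {F : Type*} [NormedAddCommGroup F] [NormedSpace ℝ F] {M : ℕ} {b : ℝ}
    {f : V n → F} (hc : Cl M b f) : 0 ≤ b :=
  (norm_nonneg _).trans (hc 0 (Nat.zero_le _) 0)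

theorem cl_mono {F : Type*} [NormedAddCommGroup F] [NormedSpace ℝ F] {M : ℕ} {b b' : ℝ}
    {f : V n → F} (hc : Cl M b f) (hb : b ≤ b') : Cl M b' f :=
  fun l hl x => (hc l hl x).trans hb

section

variable {R : Matrix (Fin n) (Fin n) ℝ} (h : Rf R)

include h

theorem norm_lin_le : ‖lin R‖ ≤ n := by
  refine ContinuousLinearMap.opNorm_le_bound _ (Nat.cast_nonneg n) fun x => ?_
  rw [pi_norm_le_iff_of_nonneg (by positivity)]
  intro i
  rw [lin_apply]
  simp only [Matrix.mulVec, dotProduct]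
  refine (norm_sum_le _ _).trans ?_
  have h1 : ∀ j ∈ Finset.univ, ‖R i j * x j‖ ≤ ‖x‖ := by
    intro j _
    rw [norm_mul, Real.norm_eq_abs]
    exact (mul_le_of_le_one_left (norm_nonneg _) (abs_le h i j)).trans (norm_le_pi_norm x j)
  refine (Finset.sum_le_sum h1).trans ?_
  simp

theorem iteratedFDeriv_rho {F : Type*} [NormedAddCommGroup F] [NormedSpace ℝ F] {f : V n → F}
    (hf : ContDiff ℝ ∞ f) (l : ℕ) (x : V n) :
    ‖iteratedFDeriv ℝ l (fun x => f (rho R x)) x‖ ≤ (n : ℝ) ^ l * ‖iteratedFDeriv ℝ l f (rho R x)‖ := by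
  set c : V n := fun _ => 1 / 2 with hc
  have h1 : (fun x => f (rho R x)) = fun x => ((fun y => f (c + y)) ∘ lin R) (x - c) := by
    funext x
    simp only [rho_eq, Function.comp_apply, hc]
  have hg : ContDiff ℝ ∞ fun y => f (c + y) := hf.comp (contDiff_const.add contDiff_id)
  rw [h1, iteratedFDeriv_comp_sub,
    ContinuousLinearMap.iteratedFDeriv_comp_right (lin R) hg (x - c) (i := l)
      (by exact_mod_cast le_top), iteratedFDeriv_comp_add_left]
  have h2 : c + lin R (x - c) = rho R x := by rw [rho_eq]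
  rw [h2]
  refine (ContinuousMultilinearMap.norm_compContinuousLinearMap_le _ _).trans ?_
  rw [mul_comm]
  refine mul_le_mul_of_nonneg_right ?_ (norm_nonneg _)
  rw [Finset.prod_const, Finset.card_univ, Fintype.card_fin]
  exact pow_le_pow_left₀ (norm_nonneg _) (norm_lin_le h) l

theorem cl_rho (hn : 1 ≤ n) {F : Type*} [NormedAddCommGroup F] [NormedSpace ℝ F] {f : V n → F}
    (hf : ContDiff ℝ ∞ f) {M : ℕ} {b : ℝ} (hc : Cl M b f) :
    Cl M ((n : ℝ) ^ M * b) fun x => f (rho R x) := by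
  intro l hl x
  have hn1 : (1 : ℝ) ≤ n := by exact_mod_cast hn
  refine (iteratedFDeriv_rho h hf l x).trans ?_
  exact mul_le_mul (pow_le_pow_right₀ hn1 hl) (hc l hl _) (norm_nonneg _) (by positivity)

end

theorem cl_sum {f : Fin n → V n → ℂ} (hf : ∀ i, ContDiff ℝ ∞ (f i)) {c : Fin n → ℝ}
    (hc : ∀ i, |c i| ≤ 1) {M : ℕ} {b : ℝ} (h : ∀ i, Cl M b (f i)) :
    Cl M ((n : ℝ) * b) fun x => ∑ i, (c i : ℂ) * f i x := by
  intro l hl x
  have h1 : (fun x => ∑ i, (c i : ℂ) * f i x) = fun x => ∑ i, c i • f i x := by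
    funext x
    exact Finset.sum_congr rfl fun i _ => Complex.real_smul.symm
  have h2 : ∀ i, ContDiffAt ℝ l (fun x => c i • f i x) x := by
    intro i
    have h4 : ContDiff ℝ ∞ (fun x => c i • f i x) := (hf i).const_smul (c i)
    exact (h4.of_le (by exact_mod_cast le_top)).contDiffAt
  rw [h1, iteratedFDeriv_fun_sum_apply fun i _ => h2 i]
  refine (norm_sum_le _ _).trans ?_
  have h3 : ∀ i ∈ Finset.univ, ‖iteratedFDeriv ℝ l (fun x => c i • f i x) x‖ ≤ b := by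
    intro i _
    have h4 : ContDiffAt ℝ l (f i) x :=
      ((hf i).of_le (by exact_mod_cast le_top)).contDiffAt
    rw [iteratedFDeriv_const_smul_apply' h4, norm_smul, Real.norm_eq_abs]
    exact (mul_le_of_le_one_left (norm_nonneg _) (hc i)).trans (h i l hl x)
  refine (Finset.sum_le_sum h3).trans ?_
  simp

theorem contDiff_lg {σ : V n → ℝ} (hσ : ContDiff ℝ ∞ σ) (pos : ∀ x, 0 < σ x) (j : Fin n) :
    ContDiff ℝ ∞ (lg σ j) :=
  Complex.ofRealCLM.contDiff.comp ((contDiff_pd hσ j).div hσ fun x => (pos x).ne')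

theorem smM_sc {σ : V n → ℝ} (hσ : ContDiff ℝ ∞ σ) : SmM (sc σ) := by
  intro i j
  exact hσ.mul contDiff_const

theorem bal_sub_core : bal n ⊆ core n := by
  intro x hx j
  have h1 : ∑ j, (x j - 1 / 2) ^ 2 ≤ 1 / 16 := hx
  have h2 : (x j - 1 / 2) ^ 2 ≤ ∑ j, (x j - 1 / 2) ^ 2 :=
    Finset.single_le_sum (f := fun j => (x j - 1 / 2) ^ 2) (fun i _ => sq_nonneg _)
      (Finset.mem_univ j)
  have h3 : (x j - 1 / 2) ^ 2 ≤ (1 / 4) ^ 2 := by
    linarith
  have h4 := abs_le_of_sq_le_sq' h3 (by norm_num)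
  constructor <;> linarith [h4.1, h4.2]

theorem isCompact_core : IsCompact (core n) := by
  have h1 : core n = Set.Icc (fun _ => 1 / 4) (fun _ => 3 / 4) := by
    ext x
    simp only [core, Set.mem_ofPred_eq, Set.mem_Icc, Pi.le_def]
    exact forall_and
  rw [h1]
  exact isCompact_Icc

section

variable {R : Matrix (Fin n) (Fin n) ℝ} (h : Rf R)

include h

omit h in
theorem lg_rho {σ : V n → ℝ} (hσ : ContDiff ℝ ∞ σ) (j : Fin n) (x : V n) :
    lg (fun x => σ (rho R x)) j x = ∑ i, (R i j : ℂ) * lg σ i (rho R x) := by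
  unfold lg
  rw [pd_rho R ((hσ.differentiable (by simp)) _)]
  push_cast
  rw [Finset.sum_div]
  refine Finset.sum_congr rfl fun i _ => ?_
  simp only [smul_eq_mul]
  push_cast
  ring

theorem cl_lg (hn : 1 ≤ n) {σ : V n → ℝ} (hσ : ContDiff ℝ ∞ σ) (pos : ∀ x, 0 < σ x) {M : ℕ}
    {b : ℝ} (hb : ∀ j, Cl M b (lg σ j)) (j : Fin n) :
    Cl M ((n : ℝ) ^ (M + 1) * b) (lg (fun x => σ (rho R x)) j) := by
  have h1 : lg (fun x => σ (rho R x)) j = fun x => ∑ i, (R i j : ℂ) * lg σ i (rho R x) := by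
    funext x
    exact lg_rho hσ j x
  rw [h1]
  have h2 := cl_sum (f := fun i x => lg σ i (rho R x)) (c := fun i => R i j)
    (fun i => (contDiff_lg hσ pos i).comp (contDiff_rho R)) (fun i => abs_le h i j)
    (fun i => cl_rho h hn (contDiff_lg hσ pos i) (hb i))
  have h3 : (n : ℝ) * ((n : ℝ) ^ M * b) = (n : ℝ) ^ (M + 1) * b := by ring
  rw [h3] at h2
  exact h2

theorem cl_inv (hn : 1 ≤ n) {σ : V n → ℝ} (hσ : ContDiff ℝ ∞ σ) (pos : ∀ x, 0 < σ x) {M : ℕ}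
    {b : ℝ} (hb : Cl M b fun x => (σ x)⁻¹ - 1) :
    Cl M ((n : ℝ) ^ (M + 1) * b) fun x => (σ (rho R x))⁻¹ - 1 := by
  have hn1 : (1 : ℝ) ≤ n := by exact_mod_cast hn
  have h1 := cl_rho h hn (f := fun x => (σ x)⁻¹ - 1)
    ((hσ.inv fun x => (pos x).ne').sub contDiff_const) hb
  refine cl_mono h1 ?_
  exact mul_le_mul_of_nonneg_right (pow_le_pow_right₀ hn1 (Nat.le_succ M)) (cl_nonneg hb)

theorem bk_tr {Ω : Set (V n)} {σ : V n → ℝ} {s : MF n} (B : Bk Ω σ s) :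
    Bk (rho R ⁻¹' Ω) (fun x => σ (rho R x)) (tr R s) where
  op := B.op.preimage (contDiff_rho R).continuous
  sub := fun x hx => (rho_mem_bal h).1 (B.sub hx)
  sσ := B.sσ.comp (contDiff_rho R)
  pos := fun x => B.pos _
  one := fun x hx => B.one _ fun hh => hx ((rho_mem_bal h).1 hh)
  sm := smM_tr h B.sm
  sy := symm_tr h B.sy
  off := by
    intro x hx
    have h1 : rho R x ∉ Ω := hx
    have h2 : tr R (sc σ) x = sc (fun x => σ (rho R x)) x := by rw [tr_sc h]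
    rw [← h2]
    unfold tr
    rw [B.off _ h1]
  st := by
    have h1 := st2_tr h (smM_sc B.sσ) B.sm B.st
    rw [tr_sc h] at h1
    exact h1

theorem df_tr (σ : V n → ℝ) (s : MF n) (i j : Fin n) (x : V n) :
    df (sc fun x => σ (rho R x)) (tr R s) i j x =
      ∑ a, ∑ b, (R i a : ℂ) * R j b * df (sc σ) s a b (rho R x) := by
  unfold df
  rw [← tr_sc h, tr_apply h, tr_apply h, ← Finset.sum_sub_distrib]
  push_cast
  refine Finset.sum_congr rfl fun a _ => ?_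
  rw [← Finset.sum_sub_distrib]
  refine Finset.sum_congr rfl fun b _ => ?_
  ring

end

theorem contDiff_df {s₁ s₂ : MF n} (h₁ : SmM s₁) (h₂ : SmM s₂) (i j : Fin n) :
    ContDiff ℝ ∞ (df s₁ s₂ i j) :=
  Complex.ofRealCLM.contDiff.comp ((h₂ i j).sub (h₁ i j))

theorem df_zero {Ω : Set (V n)} {σ : V n → ℝ} {s : MF n} (B : Bk Ω σ s) (i j : Fin n) (x : V n)
    (hx : x ∉ core n) : df (sc σ) s i j x = 0 := by
  unfold df
  rw [B.off x fun hh => hx (bal_sub_core (B.sub hh))]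
  simp

theorem continuous_ex (ξ : V n) : Continuous (ex ξ) := by
  unfold ex
  fun_prop

theorem integrable_ft {f : V n → ℂ} (hf : Continuous f) (h0 : ∀ x ∉ core n, f x = 0) (ζ : V n) :
    Integrable fun x => f x * ex (-ζ) x := by
  refine (hf.mul (continuous_ex _)).integrable_of_hasCompactSupport ?_
  refine HasCompactSupport.intro isCompact_core fun x hx => ?_
  show f x * ex (-ζ) x = 0
  rw [h0 x hx, zero_mul]

section

variable {R : Matrix (Fin n) (Fin n) ℝ} (h : Rf R)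

include h

theorem ft_df_tr {Ω : Set (V n)} {σ : V n → ℝ} {s : MF n} (B : Bk Ω σ s) (i j : Fin n) (ζ : V n) :
    ft (df (sc fun x => σ (rho R x)) (tr R s) i j) ζ =
      ph R ζ * ∑ a, ∑ b, (R i a : ℂ) * R j b * ft (df (sc σ) s a b) (R *ᵥ ζ) := by
  have h1 : ∀ a b, Continuous (df (sc σ) s a b) := fun a b =>
    (contDiff_df (smM_sc B.sσ) B.sm a b).continuous
  have h2 : ∀ a b, Integrable fun x => df (sc σ) s a b (rho R x) * ex (-ζ) x := by
    intro a b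
    refine (((h1 a b).comp (contDiff_rho R).continuous).mul
      (continuous_ex _)).integrable_of_hasCompactSupport ?_
    refine HasCompactSupport.intro isCompact_core fun x hx => ?_
    have h3 : df (sc σ) s a b (rho R x) = 0 := by
      unfold df
      rw [B.off _ fun hh => hx (bal_sub_core ((rho_mem_bal h).1 (B.sub hh)))]
      simp
    show df (sc σ) s a b (rho R x) * ex (-ζ) x = 0
    rw [h3, zero_mul]
  have h3 : ft (df (sc fun x => σ (rho R x)) (tr R s) i j) ζ =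
      ∑ a, ∑ b, (R i a : ℂ) * R j b * ft (fun x => df (sc σ) s a b (rho R x)) ζ := by
    unfold ft
    have h4 : ∀ x, df (sc fun x => σ (rho R x)) (tr R s) i j x * ex (-ζ) x =
        ∑ a, ∑ b, (R i a : ℂ) * R j b * (df (sc σ) s a b (rho R x) * ex (-ζ) x) := by
      intro x
      rw [df_tr h, Finset.sum_mul]
      refine Finset.sum_congr rfl fun a _ => ?_
      rw [Finset.sum_mul]
      refine Finset.sum_congr rfl fun b _ => ?_
      ring
    simp only [h4]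
    rw [integral_finsetSum _ fun a _ => integrable_finsetSum _ fun b _ => (h2 a b).const_mul _]
    refine Finset.sum_congr rfl fun a _ => ?_
    rw [integral_finsetSum _ fun b _ => (h2 a b).const_mul _]
    refine Finset.sum_congr rfl fun b _ => ?_
    rw [integral_const_mul]
  rw [h3]
  simp only [ft_rho h, Finset.mul_sum]
  refine Finset.sum_congr rfl fun a _ => Finset.sum_congr rfl fun b _ => ?_
  ring

omit h in
theorem norm_ph (ζ : V n) : ‖ph R ζ‖ = 1 := norm_ex _ _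

/-- the bound for the reflected tensor -/
theorem ft_df_tr_le (hn : 1 ≤ n) {Ω : Set (V n)} {σ : V n → ℝ} {s : MF n} (B : Bk Ω σ s) {a : ℝ}
    (ha : ∀ i j, ∀ ζ : V n, wr ζ ^ (n + 1) * ‖ft (df (sc σ) s i j) ζ‖ ≤ a) (i j : Fin n)
    (ζ : V n) :
    wr ζ ^ (n + 1) * ‖ft (df (sc fun x => σ (rho R x)) (tr R s) i j) ζ‖ ≤
      (n : ℝ) ^ (n + 3) * a := by
  have hw : ∀ ζ : V n, 0 ≤ wr ζ := fun ζ => by
    unfold wr
    exact add_nonneg zero_le_one (Finset.sum_nonneg fun j _ => abs_nonneg _)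
  have h1 : wr ζ ^ (n + 1) ≤ (n : ℝ) ^ (n + 1) * wr (R *ᵥ ζ) ^ (n + 1) := by
    rw [← mul_pow]
    refine pow_le_pow_left₀ (hw ζ) ?_ _
    have h2 := wr_mv h hn (R *ᵥ ζ)
    rwa [mv_mv h] at h2
  have h3 : ‖∑ p, ∑ q, (R i p : ℂ) * R j q * ft (df (sc σ) s p q) (R *ᵥ ζ)‖ ≤
      ∑ p, ∑ q, ‖ft (df (sc σ) s p q) (R *ᵥ ζ)‖ := by
    refine (norm_sum_le _ _).trans (Finset.sum_le_sum fun p _ => ?_)
    refine (norm_sum_le _ _).trans (Finset.sum_le_sum fun q _ => ?_)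
    rw [norm_mul, norm_mul, Complex.norm_real, Complex.norm_real, Real.norm_eq_abs,
      Real.norm_eq_abs]
    refine mul_le_of_le_one_left (norm_nonneg _) ?_
    exact mul_le_one₀ (abs_le h i p) (abs_nonneg _) (abs_le h j q)
  rw [ft_df_tr h B, norm_mul, norm_ph, one_mul]
  calc wr ζ ^ (n + 1) * ‖∑ p, ∑ q, (R i p : ℂ) * R j q * ft (df (sc σ) s p q) (R *ᵥ ζ)‖
      ≤ ((n : ℝ) ^ (n + 1) * wr (R *ᵥ ζ) ^ (n + 1)) *
          ∑ p, ∑ q, ‖ft (df (sc σ) s p q) (R *ᵥ ζ)‖ := by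
        refine mul_le_mul h1 h3 (norm_nonneg _) ?_
        have := hw (R *ᵥ ζ)
        positivity
    _ = (n : ℝ) ^ (n + 1) * ∑ p, ∑ q, wr (R *ᵥ ζ) ^ (n + 1) *
          ‖ft (df (sc σ) s p q) (R *ᵥ ζ)‖ := by
        simp only [Finset.mul_sum]
        refine Finset.sum_congr rfl fun p _ => Finset.sum_congr rfl fun q _ => ?_
        ring
    _ ≤ (n : ℝ) ^ (n + 1) * ∑ _p : Fin n, ∑ _q : Fin n, a := by
        refine mul_le_mul_of_nonneg_left ?_ (by positivity)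
        exact Finset.sum_le_sum fun p _ => Finset.sum_le_sum fun q _ => ha p q _
    _ = (n : ℝ) ^ (n + 3) * a := by
        simp only [Finset.sum_const, Finset.card_univ, Fintype.card_fin, nsmul_eq_mul]
        ring

/-- the quadratic forms -/
theorem form_id (T : Fin n → Fin n → ℂ) (η : V n) :
    ∑ i, ∑ j, (η i : ℂ) * η j * ∑ a, ∑ b, (R i a : ℂ) * R j b * T a b =
      ∑ a, ∑ b, ((R *ᵥ η) a : ℂ) * (R *ᵥ η) b * T a b := by
  have h1 : ∀ a, (((R *ᵥ η) a : ℝ) : ℂ) = ∑ i, (η i : ℂ) * R i a := by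
    intro a
    simp only [Matrix.mulVec, dotProduct]
    push_cast
    refine Finset.sum_congr rfl fun i _ => ?_
    rw [h.sy a i]
    ring
  calc ∑ i, ∑ j, (η i : ℂ) * η j * ∑ a, ∑ b, (R i a : ℂ) * R j b * T a b
      = ∑ i, ∑ j, ∑ a, ∑ b, (η i : ℂ) * R i a * (η j * R j b) * T a b := by
        simp only [Finset.mul_sum]
        refine Finset.sum_congr rfl fun i _ => Finset.sum_congr rfl fun j _ =>
          Finset.sum_congr rfl fun a _ => Finset.sum_congr rfl fun b _ => ?_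
        ring
    _ = ∑ i, ∑ a, ∑ j, ∑ b, (η i : ℂ) * R i a * (η j * R j b) * T a b := by
        refine Finset.sum_congr rfl fun i _ => ?_
        rw [Finset.sum_comm]
    _ = ∑ a, ∑ i, ∑ b, ∑ j, (η i : ℂ) * R i a * (η j * R j b) * T a b := by
        rw [Finset.sum_comm]
        refine Finset.sum_congr rfl fun a _ => Finset.sum_congr rfl fun i _ => ?_
        rw [Finset.sum_comm]
    _ = ∑ a, ∑ b, ∑ i, ∑ j, (η i : ℂ) * R i a * (η j * R j b) * T a b := by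
        refine Finset.sum_congr rfl fun a _ => ?_
        rw [Finset.sum_comm]
    _ = _ := by
        refine Finset.sum_congr rfl fun a _ => Finset.sum_congr rfl fun b _ => ?_
        rw [h1, h1, Finset.sum_mul_sum, Finset.sum_mul]
        refine Finset.sum_congr rfl fun i _ => ?_
        rw [Finset.sum_mul]

end

/-- (CF_ROT) -/
theorem rot : RowINT → RowESF → RowES2 := by
  intro hINT hESF n
  obtain ⟨M, C₁, hC₁, H₁⟩ := hESF n
  obtain ⟨C₂, hC₂, H₂⟩ := hINT n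
  set A : ℝ := (n : ℝ) ^ (n + 3) * C₂ with hA
  set P : ℝ := (n : ℝ) ^ (n + 1) with hP
  set Q : ℝ := (n : ℝ) ^ (M + 1) with hQ
  have hA0 : 0 ≤ A := by positivity
  have hP0 : 0 ≤ P := by positivity
  have hQ0 : 0 ≤ Q := by positivity
  set C : ℝ := 1 + C₁ * Q + C₁ * A + P * C₁ * Q * A + P ^ 2 * C₁ * A ^ 2 with hC
  have hC0 : 0 < C := by positivity
  have hCa : C₁ * Q ≤ C := by
    have : 0 ≤ C₁ * A + P * C₁ * Q * A + P ^ 2 * C₁ * A ^ 2 := by positivity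
    linarith
  have hCb : C₁ * A ≤ C := by
    have : 0 ≤ C₁ * Q + P * C₁ * Q * A + P ^ 2 * C₁ * A ^ 2 := by positivity
    linarith
  have hCc : P * C₁ * Q * A ≤ C := by
    have : 0 ≤ C₁ * Q + C₁ * A + P ^ 2 * C₁ * A ^ 2 := by positivity
    linarith
  have hCd : P ^ 2 * C₁ * A ^ 2 ≤ C := by
    have : 0 ≤ C₁ * Q + C₁ * A + P * C₁ * Q * A := by positivity
    linarith
  refine ⟨M, C, hC0, ?_⟩
  intro Ω σ s B a b hb hb' hCb1 ha ξ q hq hqξ hξ hCa1
  have hn : 1 ≤ n := by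
    rcases Nat.eq_zero_or_pos n with h0 | h0
    · subst h0
      exfalso
      unfold nr at hq
      simp at hq
    · exact h0
  have i₀ : Fin n := ⟨0, hn⟩
  have hb0 : 0 ≤ b := cl_nonneg hb'
  have hw : ∀ ζ : V n, 1 ≤ wr ζ := fun ζ => by
    unfold wr
    have : 0 ≤ ∑ j, |ζ j| := Finset.sum_nonneg fun j _ => abs_nonneg _
    linarith
  have ha0 : 0 ≤ a := by
    have h1 := ha i₀ i₀ 0
    refine le_trans ?_ h1
    have : 0 ≤ wt (0 : Ix n) := by
      unfold wt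
      positivity
    positivity
  obtain ⟨R, h, hR⟩ := exists_refl i₀ q hq
  have hft : ∀ i j, ∀ ζ : V n, wr ζ ^ (n + 1) * ‖ft (df (sc σ) s i j) ζ‖ ≤ C₂ * a := fun i j ζ =>
    H₂ (df (sc σ) s i j) (contDiff_df (smM_sc B.sσ) B.sm i j) (df_zero B i j) a (ha i j) ζ
  have hft' : ∀ i j, ∀ ζ : V n,
      wr ζ ^ (n + 1) * ‖ft (df (sc fun x => σ (rho R x)) (tr R s) i j) ζ‖ ≤ A * a := by
    intro i j ζ
    have h1 := ft_df_tr_le h hn B hft i j ζ
    have h2 : (n : ℝ) ^ (n + 3) * (C₂ * a) = A * a := by rw [hA]; ring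
    rwa [h2] at h1
  have hη : (R *ᵥ ξ) i₀ = 0 := by
    simp only [Matrix.mulVec, dotProduct]
    rw [← hqξ]
    exact Finset.sum_congr rfl fun j _ => by rw [h.sy i₀ j, hR]
  have hnr : nr (R *ᵥ ξ) = nr ξ := nr_mv h ξ
  have hnr0 : 0 ≤ nr ξ := Real.sqrt_nonneg _
  have key := H₁ i₀ (rho R ⁻¹' Ω) (fun x => σ (rho R x)) (tr R s) (bk_tr h B) (A * a) (Q * b)
    (cl_lg h hn B.sσ B.pos hb) (cl_inv h hn B.sσ B.pos hb')
    (by
      calc C₁ * (Q * b) = C₁ * Q * b := by ring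
        _ ≤ C * b := mul_le_mul_of_nonneg_right hCa hb0
        _ ≤ 1 := hCb1)
    hft' (R *ᵥ ξ) hη (by rw [hnr]; exact hξ)
    (by
      rw [hnr]
      calc C₁ * nr ξ * (A * a) = C₁ * A * (nr ξ * a) := by ring
        _ ≤ C * (nr ξ * a) := mul_le_mul_of_nonneg_right hCb (by positivity)
        _ = C * nr ξ * a := by ring
        _ ≤ 1 := hCa1)
  rw [hnr] at key
  set T : Fin n → Fin n → ℂ := fun i j => ft (df (sc σ) s i j) ξ with hT
  have e1 : ∀ i j, ft (df (sc fun x => σ (rho R x)) (tr R s) i j) (R *ᵥ ξ) =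
      ph R (R *ᵥ ξ) * ∑ a, ∑ b, (R i a : ℂ) * R j b * T a b := by
    intro i j
    rw [ft_df_tr h B, mv_mv h]
  have e2 : ((nr ξ : ℝ) : ℂ) ^ 2 * ft (df (sc fun x => σ (rho R x)) (tr R s) i₀ i₀) (R *ᵥ ξ)
      + ∑ i, ∑ j, (((R *ᵥ ξ) i : ℝ) : ℂ) * (R *ᵥ ξ) j *
        ft (df (sc fun x => σ (rho R x)) (tr R s) i j) (R *ᵥ ξ) =
      ph R (R *ᵥ ξ) * (((nr ξ : ℝ) : ℂ) ^ 2 * (∑ i, ∑ j, (q i : ℂ) * q j * T i j)
        + ∑ i, ∑ j, (ξ i : ℂ) * ξ j * T i j) := by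
    simp only [e1]
    have e3 := form_id h T (R *ᵥ ξ)
    rw [mv_mv h] at e3
    rw [← e3]
    have e4 : ∀ a, R i₀ a = q a := fun a => by rw [h.sy i₀ a, hR]
    simp only [e4]
    rw [mul_add, Finset.mul_sum (s := Finset.univ) (f := fun i => ∑ j, (((R *ᵥ ξ) i : ℝ) : ℂ) *
      (R *ᵥ ξ) j * ∑ a, ∑ b, (R i a : ℂ) * R j b * T a b)]
    congr 1
    · ring
    · refine Finset.sum_congr rfl fun i _ => ?_
      rw [Finset.mul_sum]
      refine Finset.sum_congr rfl fun j _ => ?_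
      ring
  rw [e2, norm_mul, norm_ph, one_mul] at key
  set E : ℝ := ‖((nr ξ : ℝ) : ℂ) ^ 2 * (∑ i, ∑ j, (q i : ℂ) * q j * T i j)
        + ∑ i, ∑ j, (ξ i : ℂ) * ξ j * T i j‖ with hE
  have hE0 : 0 ≤ E := norm_nonneg _
  have w1 : wr ξ ^ (n + 1) ≤ P * wr (R *ᵥ ξ) ^ (n + 1) := by
    rw [hP, ← mul_pow]
    refine pow_le_pow_left₀ (zero_le_one.trans (hw ξ)) ?_ _
    have h2 := wr_mv h hn (R *ᵥ ξ)
    rwa [mv_mv h] at h2
  have w2 : wr (R *ᵥ ξ) ^ (n + 1) ≤ P * wr ξ ^ (n + 1) := by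
    rw [hP, ← mul_pow]
    exact pow_le_pow_left₀ (zero_le_one.trans (hw _)) (wr_mv h hn ξ) _
  have hwξ : 0 ≤ wr ξ ^ (n + 1) := pow_nonneg (zero_le_one.trans (hw ξ)) _
  calc wr ξ ^ (n + 1) * E ≤ P * wr (R *ᵥ ξ) ^ (n + 1) * E := mul_le_mul_of_nonneg_right w1 hE0
    _ = P * (wr (R *ᵥ ξ) ^ (n + 1) * E) := by ring
    _ ≤ P * (C₁ * nr ξ ^ 2 * (Q * b * (A * a)) +
          C₁ * nr ξ ^ 3 * (A * a) ^ 2 * wr (R *ᵥ ξ) ^ (n + 1)) :=
        mul_le_mul_of_nonneg_left key hP0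
    _ ≤ P * (C₁ * nr ξ ^ 2 * (Q * b * (A * a)) +
          C₁ * nr ξ ^ 3 * (A * a) ^ 2 * (P * wr ξ ^ (n + 1))) := by
        refine mul_le_mul_of_nonneg_left ?_ hP0
        refine add_le_add le_rfl (mul_le_mul_of_nonneg_left w2 (by positivity))
    _ = P * C₁ * Q * A * (nr ξ ^ 2 * (b * a)) +
          P ^ 2 * C₁ * A ^ 2 * (nr ξ ^ 3 * a ^ 2 * wr ξ ^ (n + 1)) := by ring
    _ ≤ C * (nr ξ ^ 2 * (b * a)) + C * (nr ξ ^ 3 * a ^ 2 * wr ξ ^ (n + 1)) := by
        refine add_le_add (mul_le_mul_of_nonneg_right hCc (by positivity))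
          (mul_le_mul_of_nonneg_right hCd (by positivity))
    _ = C * nr ξ ^ 2 * (b * a) + C * nr ξ ^ 3 * a ^ 2 * wr ξ ^ (n + 1) := by ring

end Vale.Agent.P088.LR.CF.H952
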