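import Vale.Agent.P088.H952.JC
import Vale.Agent.P088.H599.J.Defs

/-!
# P088, stage J, row U_ROT: the estimate for every real unit vector `v ⊥ ξ`
-/

open MeasureTheory Set
open scoped ContDiff Matrix

noncomputable section

namespace Vale.Agent.P088.LR.U.R952

open Vale.Agent.P088.LR Vale.Agent.P088.LR.CF Vale.Agent.P088.LR.H158 CF.H952

variable {n N : ℕ}

/-- The reflected matrix tensor. -/
def TR (R : Matrix (Fin n) (Fin n) ℝ) (T : Fin n → Fin n → MC n N) (i j : Fin n) : MC n N :=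
  fun x => ∑ a, ∑ b, (R i a * R j b) • T a b (rho R x)

/-- The reflected matrix field. -/
def KR (R : Matrix (Fin n) (Fin n) ℝ) (κ : Fin n → MC n N) (i : Fin n) : MC n N :=
  fun x => ∑ a, R i a • κ a (rho R x)

theorem TR_entry (R : Matrix (Fin n) (Fin n) ℝ) (T : Fin n → Fin n → MC n N) (i j : Fin n)
    (α β : Fin N) : (fun x => TR R T i j x α β) = tc R (fun a b x => T a b x α β) i j := by
  funext x
  unfold TR tc
  simp only [Matrix.sum_apply, Matrix.smul_apply, Complex.real_smul]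
  push_cast
  rfl

theorem KR_entry (R : Matrix (Fin n) (Fin n) ℝ) (κ : Fin n → MC n N) (i : Fin n)
    (α β : Fin N) : (fun x => KR R κ i x α β) = vc R (fun a x => κ a x α β) i := by
  funext x
  unfold KR vc
  simp only [Matrix.sum_apply, Matrix.smul_apply, Complex.real_smul]

theorem smC_rho (R : Matrix (Fin n) (Fin n) ℝ) {τ : MC n N} (hτ : SmC τ) :
    SmC fun x => τ (rho R x) := fun a b => (hτ a b).comp (contDiff_rho R)

theorem smC_TR (R : Matrix (Fin n) (Fin n) ℝ) {T : Fin n → Fin n → MC n N}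
    (hT : ∀ i j, SmC (T i j)) (i j : Fin n) : SmC (TR R T i j) := by
  intro α β
  show ContDiff ℝ ∞ (fun x => TR R T i j x α β)
  rw [TR_entry]
  exact contDiff_tc R (fun a b => hT a b α β) i j

theorem smC_KR (R : Matrix (Fin n) (Fin n) ℝ) {κ : Fin n → MC n N}
    (hκ : ∀ i, SmC (κ i)) (i : Fin n) : SmC (KR R κ i) := by
  intro α β
  show ContDiff ℝ ∞ (fun x => KR R κ i x α β)
  rw [KR_entry]
  exact contDiff_vc R (fun a => hκ a α β) i

theorem contDiff_mulVec {T : MC n N} (hT : SmC T) {u : V n → Fin N → ℂ} (hu : ContDiff ℝ ∞ u) :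
    ContDiff ℝ ∞ fun x => T x *ᵥ u x := by
  rw [contDiff_pi]
  intro α
  simp only [Matrix.mulVec, dotProduct]
  exact ContDiff.sum fun β _ => (hT α β).mul ((contDiff_pi.1 hu) β)

theorem contDiff_vecMul {T : MC n N} (hT : SmC T) {u : V n → Fin N → ℂ} (hu : ContDiff ℝ ∞ u) :
    ContDiff ℝ ∞ fun x => u x ᵥ* T x := by
  rw [contDiff_pi]
  intro α
  simp only [Matrix.vecMul, dotProduct]
  exact ContDiff.sum fun β _ => ((contDiff_pi.1 hu) β).mul (hT β α)

theorem bls_sub_bal : bls n ⊆ bal n := fun x hx => by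
  have h1 : ∑ j, (x j - 1 / 2) ^ 2 ≤ 1 / 64 := hx
  show ∑ j, (x j - 1 / 2) ^ 2 ≤ 1 / 16
  linarith

section

variable {R : Matrix (Fin n) (Fin n) ℝ} (h : Rf R)

include h

theorem pd_comp {F : Type*} [NormedAddCommGroup F] [NormedSpace ℝ F] {W : V n → F}
    (hW : ContDiff ℝ ∞ W) (y : V n) (j : Fin n) :
    pd j (fun x => W (rho R x)) (rho R y) = ∑ l, R l j • pd l W y := by
  rw [pd_rho R ((hW.differentiable (by simp)) _), rho_rho h]

/-- divergence of a rotated field -/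
theorem div_rotV {F : Type*} [NormedAddCommGroup F] [NormedSpace ℝ F] {Φ : Fin n → V n → F}
    (hΦ : ∀ i, ContDiff ℝ ∞ (Φ i)) (y : V n) :
    ∑ k, pd k (fun y => ∑ i, R k i • Φ i (rho R y)) y = ∑ i, pd i (Φ i) (rho R y) := by
  have h2 : ∀ k, pd k (fun y => ∑ i, R k i • Φ i (rho R y)) y =
      ∑ i, R k i • ∑ m, R m k • pd m (Φ i) (rho R y) := by
    intro k
    have h3 : HasFDerivAt (fun y => ∑ i, R k i • Φ i (rho R y))
        (∑ i, R k i • fderiv ℝ (fun x => Φ i (rho R x)) y) y := by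
      refine HasFDerivAt.fun_sum fun i _ => ?_
      exact ((((hΦ i).comp (contDiff_rho R)).differentiable (by simp)) y).hasFDerivAt.const_smul
        (R k i)
    unfold pd
    rw [h3.fderiv, sum_apply]
    refine Finset.sum_congr rfl fun i _ => ?_
    have h4 := pd_rho R (((hΦ i).differentiable (by simp)) (rho R y)) k
    unfold pd at h4
    rw [smul_apply, h4]
  simp only [h2]
  calc ∑ k, ∑ i, R k i • ∑ m, R m k • pd m (Φ i) (rho R y)
      = ∑ i, ∑ m, (∑ k, R m k * R k i) • pd m (Φ i) (rho R y) := by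
        simp only [Finset.smul_sum, Finset.sum_smul]
        rw [Finset.sum_comm]
        refine Finset.sum_congr rfl fun i _ => ?_
        rw [Finset.sum_comm]
        refine Finset.sum_congr rfl fun m _ => Finset.sum_congr rfl fun k _ => ?_
        rw [smul_smul, mul_comm]
    _ = ∑ i, ∑ m, (if m = i then (1 : ℝ) else 0) • pd m (Φ i) (rho R y) := by
        refine Finset.sum_congr rfl fun i _ => Finset.sum_congr rfl fun m _ => ?_
        rw [h.sq m i]
    _ = ∑ i, pd i (Φ i) (rho R y) := by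
        refine Finset.sum_congr rfl fun i _ => ?_
        simp

/-- `rho` preserves the small ball -/
theorem rho_mem_bls {x : V n} : rho R x ∈ bls n ↔ x ∈ bls n := by
  unfold bls
  simp only [Set.mem_ofPred_eq]
  have h1 : ∑ j, (rho R x j - 1 / 2) ^ 2 = ∑ j, (x j - 1 / 2) ^ 2 := by
    have h2 := nr_mv h (x - fun _ => (1 / 2 : ℝ))
    unfold nr at h2
    have h3 : ∀ j, rho R x j - 1 / 2 = (R *ᵥ (x - fun _ => (1 / 2 : ℝ))) j := by
      intro j
      unfold rho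
      simp
    have h4 : ∑ j, (rho R x j - 1 / 2) ^ 2 = ∑ j, (R *ᵥ (x - fun _ => (1 / 2 : ℝ))) j ^ 2 :=
      Finset.sum_congr rfl fun j _ => by rw [h3]
    rw [h4]
    exact (Real.sqrt_inj (Finset.sum_nonneg fun j _ => sq_nonneg _)
      (Finset.sum_nonneg fun j _ => sq_nonneg _)).1 h2
  rw [h1]

theorem flux_TR (T : Fin n → Fin n → MC n N) {u : V n → Fin N → ℂ} (hu : ContDiff ℝ ∞ u)
    (y : V n) (i : Fin n) : ∑ j, TR R T i j y *ᵥ pd j u y =
      ∑ a, R i a • ∑ b, T a b (rho R y) *ᵥ pd b (fun x => u (rho R x)) (rho R y) := by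
  simp only [pd_comp h hu]
  unfold TR
  simp only [Matrix.sum_mulVec, Matrix.smul_mulVec, Matrix.mulVec_sum, Matrix.mulVec_smul,
    Finset.smul_sum, smul_smul]
  rw [Finset.sum_comm]
  refine Finset.sum_congr rfl fun a _ => ?_
  rw [Finset.sum_comm]

theorem flux_TR' (T : Fin n → Fin n → MC n N) {w : V n → Fin N → ℂ} (hw : ContDiff ℝ ∞ w)
    (y : V n) (i : Fin n) : ∑ j, pd j w y ᵥ* TR R T j i y =
      ∑ a, R i a • ∑ b, pd b (fun x => w (rho R x)) (rho R y) ᵥ* T b a (rho R y) := by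
  simp only [pd_comp h hw]
  unfold TR
  simp only [Matrix.vecMul_sum, Matrix.vecMul_smul, Matrix.sum_vecMul, Matrix.smul_vecMul,
    Finset.smul_sum, smul_smul]
  calc ∑ j, ∑ a, ∑ b, (R j a * R i b) • (pd j w y ᵥ* T a b (rho R y))
      = ∑ j, ∑ b, ∑ a, (R j a * R i b) • (pd j w y ᵥ* T a b (rho R y)) := by
        refine Finset.sum_congr rfl fun j _ => ?_
        rw [Finset.sum_comm]
    _ = ∑ b, ∑ j, ∑ a, (R j a * R i b) • (pd j w y ᵥ* T a b (rho R y)) := by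
        rw [Finset.sum_comm]
    _ = ∑ b, ∑ a, ∑ j, (R j a * R i b) • (pd j w y ᵥ* T a b (rho R y)) := by
        refine Finset.sum_congr rfl fun b _ => ?_
        rw [Finset.sum_comm]
    _ = _ := by
        refine Finset.sum_congr rfl fun b _ => Finset.sum_congr rfl fun a _ =>
          Finset.sum_congr rfl fun j _ => ?_
        rw [mul_comm]

theorem kap_KR (κ : Fin n → MC n N) {u : V n → Fin N → ℂ} (hu : ContDiff ℝ ∞ u) (y : V n) :
    ∑ i, KR R κ i y *ᵥ pd i u y =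
      ∑ a, κ a (rho R y) *ᵥ pd a (fun x => u (rho R x)) (rho R y) := by
  simp only [pd_comp h hu]
  unfold KR
  simp only [Matrix.sum_mulVec, Matrix.smul_mulVec, Matrix.mulVec_sum, Matrix.mulVec_smul]
  rw [Finset.sum_comm]

theorem kap_KR' (κ : Fin n → MC n N) {w : V n → Fin N → ℂ} (hw : ContDiff ℝ ∞ w) (y : V n) :
    ∑ i, pd i w y ᵥ* KR R κ i y =
      ∑ a, pd a (fun x => w (rho R x)) (rho R y) ᵥ* κ a (rho R y) := by
  simp only [pd_comp h hw]
  unfold KR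
  simp only [Matrix.vecMul_sum, Matrix.vecMul_smul, Matrix.sum_vecMul, Matrix.smul_vecMul]
  rw [Finset.sum_comm]

theorem mo_tr {T : Fin n → Fin n → MC n N} (hT : ∀ i j, SmC (T i j)) (κ : Fin n → MC n N)
    {u : V n → Fin N → ℂ} (hu : ContDiff ℝ ∞ u) (y : V n) :
    Mo (TR R T) (KR R κ) u y = Mo T κ (fun x => u (rho R x)) (rho R y) := by
  have hur : ContDiff ℝ ∞ fun x => u (rho R x) := hu.comp (contDiff_rho R)
  have h1 := div_rotV h (Φ := fun i x => ∑ j, T i j x *ᵥ pd j (fun x => u (rho R x)) x)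
    (fun i => ContDiff.sum fun j _ => contDiff_mulVec (hT i j) (CF.H952.contDiff_pd hur j)) y
  unfold Mo
  rw [kap_KR h κ hu, ← h1]
  congr 1
  refine Finset.sum_congr rfl fun i _ => ?_
  congr 1
  funext y
  exact flux_TR h T hu y i

theorem mt_tr {T : Fin n → Fin n → MC n N} (hT : ∀ i j, SmC (T i j)) (κ : Fin n → MC n N)
    {w : V n → Fin N → ℂ} (hw : ContDiff ℝ ∞ w) (y : V n) :
    Mt (TR R T) (KR R κ) w y = Mt T κ (fun x => w (rho R x)) (rho R y) := by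
  have hwr : ContDiff ℝ ∞ fun x => w (rho R x) := hw.comp (contDiff_rho R)
  have h1 := div_rotV h (Φ := fun i x => ∑ j, pd j (fun x => w (rho R x)) x ᵥ* T j i x)
    (fun i => ContDiff.sum fun j _ => contDiff_vecMul (hT j i) (CF.H952.contDiff_pd hwr j)) y
  unfold Mt
  rw [kap_KR' h κ hw, ← h1]
  congr 1
  refine Finset.sum_congr rfl fun i _ => ?_
  congr 1
  funext y
  exact flux_TR' h T hw y i

omit h in
theorem TR_sub (T₁ T₂ : Fin n → Fin n → MC n N) (i j : Fin n) (x : V n) :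
    TR R T₂ i j x - TR R T₁ i j x =
      ∑ a, ∑ b, (R i a * R j b) • (T₂ a b (rho R x) - T₁ a b (rho R x)) := by
  unfold TR
  simp only [smul_sub, Finset.sum_sub_distrib]

omit h in
theorem KR_sub (κ₁ κ₂ : Fin n → MC n N) (i : Fin n) (x : V n) :
    KR R κ₂ i x - KR R κ₁ i x = ∑ a, R i a • (κ₂ a (rho R x) - κ₁ a (rho R x)) := by
  unfold KR
  simp only [smul_sub, Finset.sum_sub_distrib]

omit h in
theorem TR_add (T₁ T₂ : Fin n → Fin n → MC n N) (i j : Fin n) (x : V n) :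
    TR R (fun i j x => T₁ i j x + T₂ i j x) i j x = TR R T₁ i j x + TR R T₂ i j x := by
  unfold TR
  simp only [smul_add, Finset.sum_add_distrib]

omit h in
theorem KR_add (κ₁ κ₂ : Fin n → MC n N) (i : Fin n) (x : V n) :
    KR R (fun i x => κ₁ i x + κ₂ i x) i x = KR R κ₁ i x + KR R κ₂ i x := by
  unfold KR
  simp only [smul_add, Finset.sum_add_distrib]

/-- the bilinear form -/
theorem bil_TR (D : Fin n → Fin n → Matrix (Fin N) (Fin N) ℂ) {u w : V n → Fin N → ℂ}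
    (hu : ContDiff ℝ ∞ u) (hw : ContDiff ℝ ∞ w) (y : V n) :
    ∑ i, ∑ j, pd j w y ⬝ᵥ ((∑ a, ∑ b, (R j a * R i b) • D a b) *ᵥ pd i u y) =
      ∑ i, ∑ j, pd j (fun x => w (rho R x)) (rho R y) ⬝ᵥ
        (D j i *ᵥ pd i (fun x => u (rho R x)) (rho R y)) := by
  simp only [pd_comp h hu, pd_comp h hw]
  simp only [Matrix.sum_mulVec, Matrix.smul_mulVec, Matrix.mulVec_sum, Matrix.mulVec_smul,
    dotProduct_sum, sum_dotProduct, smul_dotProduct, dotProduct_smul, Finset.smul_sum, smul_smul]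
  calc ∑ i, ∑ j, ∑ a, ∑ b, (R j a * R i b) • (pd j w y ⬝ᵥ D a b *ᵥ pd i u y)
      = ∑ i, ∑ j, ∑ b, ∑ a, (R j a * R i b) • (pd j w y ⬝ᵥ D a b *ᵥ pd i u y) := by
        refine Finset.sum_congr rfl fun i _ => Finset.sum_congr rfl fun j _ => ?_
        rw [Finset.sum_comm]
    _ = ∑ i, ∑ b, ∑ j, ∑ a, (R j a * R i b) • (pd j w y ⬝ᵥ D a b *ᵥ pd i u y) := by
        refine Finset.sum_congr rfl fun i _ => ?_
        rw [Finset.sum_comm]
    _ = ∑ b, ∑ i, ∑ a, ∑ j, (R j a * R i b) • (pd j w y ⬝ᵥ D a b *ᵥ pd i u y) := by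
        rw [Finset.sum_comm]
        refine Finset.sum_congr rfl fun b _ => Finset.sum_congr rfl fun i _ => ?_
        rw [Finset.sum_comm]
    _ = ∑ b, ∑ a, ∑ i, ∑ j, (R j a * R i b) • (pd j w y ⬝ᵥ D a b *ᵥ pd i u y) := by
        refine Finset.sum_congr rfl fun b _ => ?_
        rw [Finset.sum_comm]
    _ = _ := by
        refine Finset.sum_congr rfl fun b _ => Finset.sum_congr rfl fun a _ => ?_
        refine Finset.sum_congr rfl fun i _ => Finset.sum_congr rfl fun j _ => ?_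
        rw [mul_comm]

theorem lin_KR (D : Fin n → Matrix (Fin N) (Fin N) ℂ) {u : V n → Fin N → ℂ}
    (hu : ContDiff ℝ ∞ u) (v : Fin N → ℂ) (y : V n) :
    ∑ i, v ⬝ᵥ ((∑ a, R i a • D a) *ᵥ pd i u y) =
      ∑ i, v ⬝ᵥ (D i *ᵥ pd i (fun x => u (rho R x)) (rho R y)) := by
  simp only [pd_comp h hu]
  simp only [Matrix.sum_mulVec, Matrix.smul_mulVec, Matrix.mulVec_sum, Matrix.mulVec_smul,
    dotProduct_sum, dotProduct_smul]
  rw [Finset.sum_comm]

/-- the orthogonality identity is invariant -/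
theorem stU_tr {Ω : Set (V n)} {T₁ T₂ : Fin n → Fin n → MC n N} {κ₁ κ₂ : Fin n → MC n N}
    (hT₁ : ∀ i j, SmC (T₁ i j)) (hT₂ : ∀ i j, SmC (T₂ i j)) (hst : StU Ω T₁ κ₁ T₂ κ₂) :
    StU (rho R ⁻¹' Ω) (TR R T₁) (KR R κ₁) (TR R T₂) (KR R κ₂) := by
  intro u w hu hw h1 h2
  have e1 : ∀ x ∈ Ω, Mo T₁ κ₁ (fun x => u (rho R x)) x = 0 := by
    intro x hx
    have h3 := h1 (rho R x) (by rw [Set.mem_preimage, rho_rho h]; exact hx)
    rwa [mo_tr h hT₁ κ₁ hu, rho_rho h] at h3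
  have e2 : ∀ x ∈ Ω, Mt T₂ κ₂ (fun x => w (rho R x)) x = 0 := by
    intro x hx
    have h3 := h2 (rho R x) (by rw [Set.mem_preimage, rho_rho h]; exact hx)
    rwa [mt_tr h hT₂ κ₂ hw, rho_rho h] at h3
  have h3 := hst (fun x => u (rho R x)) (fun x => w (rho R x)) (hu.comp (contDiff_rho R))
    (hw.comp (contDiff_rho R)) e1 e2
  have h5 := setIntegral_rho h (fun x => (∑ i, ∑ j, pd j (fun x => w (rho R x)) x ⬝ᵥ
      ((T₂ j i x - T₁ j i x) *ᵥ pd i (fun x => u (rho R x)) x)) -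
      ∑ i, w (rho R x) ⬝ᵥ ((κ₂ i x - κ₁ i x) *ᵥ pd i (fun x => u (rho R x)) x)) Ω
  have h4 : ∀ y, ((∑ i, ∑ j, pd j w y ⬝ᵥ ((TR R T₂ j i y - TR R T₁ j i y) *ᵥ pd i u y)) -
      ∑ i, w y ⬝ᵥ ((KR R κ₂ i y - KR R κ₁ i y) *ᵥ pd i u y)) =
      (∑ i, ∑ j, pd j (fun x => w (rho R x)) (rho R y) ⬝ᵥ
      ((T₂ j i (rho R y) - T₁ j i (rho R y)) *ᵥ pd i (fun x => u (rho R x)) (rho R y))) -
      ∑ i, w (rho R (rho R y)) ⬝ᵥ ((κ₂ i (rho R y) - κ₁ i (rho R y)) *ᵥ
        pd i (fun x => u (rho R x)) (rho R y)) := by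
    intro y
    simp only [TR_sub, KR_sub]
    rw [bil_TR h (fun a b => T₂ a b (rho R y) - T₁ a b (rho R y)) hu hw y,
      lin_KR h (fun a => κ₂ a (rho R y) - κ₁ a (rho R y)) hu (w y) y, rho_rho h]
  simp only [h4]
  exact h5.trans h3

theorem TR_dg (τ : MC n N) (i j : Fin n) (x : V n) :
    TR R (dg τ) i j x = dg (fun x => τ (rho R x)) i j x := by
  unfold TR dg
  have h1 : ∀ a, ∑ b, (R i a * R j b) • (if a = b then τ (rho R x) else 0) =
      (R i a * R a j) • τ (rho R x) := by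
    intro a
    simp only [smul_ite, smul_zero, Finset.sum_ite_eq, Finset.mem_univ, if_true]
    rw [h.sy j a]
  simp only [h1]
  rw [← Finset.sum_smul, h.sq i j]
  split_ifs
  · rw [one_smul]
  · rw [zero_smul]

theorem bkU_tr {Ω : Set (V n)} {τ τi : MC n N} {κ : Fin n → MC n N}
    {g : Fin n → Fin n → MC n N} {q : Fin n → MC n N} (B : BkU Ω τ τi κ g q) :
    BkU (rho R ⁻¹' Ω) (fun x => τ (rho R x)) (fun x => τi (rho R x)) (KR R κ) (TR R g)
      (KR R q) where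
  op := B.op.preimage (contDiff_rho R).continuous
  sub := fun x hx => (rho_mem_bls h).1 (B.sub hx)
  sτ := smC_rho R B.sτ
  si := smC_rho R B.si
  inv := fun x => B.inv _
  sκ := smC_KR R B.sκ
  sh := smC_TR R B.sh
  sq := smC_KR R B.sq
  sym := by
    intro i j
    funext x
    unfold TR
    rw [Finset.sum_comm]
    refine Finset.sum_congr rfl fun a _ => Finset.sum_congr rfl fun b _ => ?_
    rw [B.sym b a, mul_comm]
  h0 := by
    intro i j x hx
    unfold TR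
    refine Finset.sum_eq_zero fun a _ => Finset.sum_eq_zero fun b _ => ?_
    rw [B.h0 a b _ hx, smul_zero]
  q0 := by
    intro i x hx
    unfold KR
    refine Finset.sum_eq_zero fun a _ => ?_
    rw [B.q0 a _ hx, smul_zero]
  dq := by
    intro x
    ext α β
    have h1 := div_vc h (J := fun a x => q a x α β) (fun a => B.sq a α β) x
    have h2 := congrFun (congrFun (B.dq (rho R x)) α) β
    simp only [Matrix.sum_apply, pdm, Matrix.of_apply, Matrix.zero_apply] at h2 ⊢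
    simp only [KR_entry]
    rw [h1]
    exact h2
  st := by
    have hd : ∀ i j, SmC (dg τ i j) := by
      intro i j α β
      by_cases hij : i = j
      · have h1 : (fun x => dg τ i j x α β) = fun x => τ x α β := by
          funext x
          unfold dg
          rw [if_pos hij]
        rw [h1]
        exact B.sτ α β
      · have h1 : (fun x => dg τ i j x α β) = fun _ => 0 := by
          funext x
          unfold dg
          rw [if_neg hij]
          rfl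
        rw [h1]
        exact contDiff_const
    have h1 := stU_tr h (T₁ := dg τ) (T₂ := fun i j x => dg τ i j x + g i j x) (κ₁ := κ)
      (κ₂ := fun i x => κ i x + q i x) hd (fun i j α β => (hd i j α β).add (B.sh i j α β)) B.st
    have e1 : TR R (dg τ) = dg (fun x => τ (rho R x)) := by
      funext i j x
      exact TR_dg h τ i j x
    have e2 : TR R (fun i j x => dg τ i j x + g i j x) =
        fun i j x => dg (fun x => τ (rho R x)) i j x + TR R g i j x := by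
      funext i j x
      rw [TR_add, e1]
    have e3 : KR R (fun i x => κ i x + q i x) = fun i x => KR R κ i x + KR R q i x := by
      funext i x
      exact KR_add κ q i x
    rw [e1, e2, e3] at h1
    exact h1

/-! ### estimates -/

omit h in
theorem wr_pos (ζ : V n) : 1 ≤ wr ζ := by
  unfold wr
  have : 0 ≤ ∑ j, |ζ j| := Finset.sum_nonneg fun j _ => abs_nonneg _
  linarith

theorem wr_pow (hn : 1 ≤ n) (m : ℕ) (ζ : V n) :
    wr ζ ^ m ≤ (n : ℝ) ^ m * wr (R *ᵥ ζ) ^ m := by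
  rw [← mul_pow]
  refine pow_le_pow_left₀ (zero_le_one.trans (wr_pos ζ)) ?_ _
  have h2 := wr_mv h hn (R *ᵥ ζ)
  rwa [mv_mv h] at h2

theorem wr_pow' (hn : 1 ≤ n) (m : ℕ) (ζ : V n) :
    wr (R *ᵥ ζ) ^ m ≤ (n : ℝ) ^ m * wr ζ ^ m := by
  rw [← mul_pow]
  exact pow_le_pow_left₀ (zero_le_one.trans (wr_pos _)) (wr_mv h hn ζ) _

theorem tc_le (hn : 1 ≤ n) {T : Fin n → Fin n → V n → ℂ} (hT : ∀ i j, Continuous (T i j))
    (h0 : ∀ i j, ∀ x ∉ bal n, T i j x = 0) {m : ℕ} {a : ℝ}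
    (ha : ∀ i j, ∀ ζ : V n, wr ζ ^ m * ‖ft (T i j) ζ‖ ≤ a) (i j : Fin n) (ζ : V n) :
    wr ζ ^ m * ‖ft (tc R T i j) ζ‖ ≤ (n : ℝ) ^ (m + 2) * a := by
  have h3 : ‖∑ p, ∑ q, (R i p : ℂ) * R j q * ft (T p q) (R *ᵥ ζ)‖ ≤
      ∑ p, ∑ q, ‖ft (T p q) (R *ᵥ ζ)‖ := by
    refine (norm_sum_le _ _).trans (Finset.sum_le_sum fun p _ => ?_)
    refine (norm_sum_le _ _).trans (Finset.sum_le_sum fun q _ => ?_)
    rw [norm_mul, norm_mul, Complex.norm_real, Complex.norm_real, Real.norm_eq_abs,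
      Real.norm_eq_abs]
    refine mul_le_of_le_one_left (norm_nonneg _) ?_
    exact mul_le_one₀ (abs_le h i p) (abs_nonneg _) (abs_le h j q)
  rw [ft_tc h hT h0, norm_mul, norm_ph, one_mul]
  calc wr ζ ^ m * ‖∑ p, ∑ q, (R i p : ℂ) * R j q * ft (T p q) (R *ᵥ ζ)‖
      ≤ ((n : ℝ) ^ m * wr (R *ᵥ ζ) ^ m) * ∑ p, ∑ q, ‖ft (T p q) (R *ᵥ ζ)‖ := by
        refine mul_le_mul (wr_pow h hn m ζ) h3 (norm_nonneg _) ?_
        have := zero_le_one.trans (wr_pos (R *ᵥ ζ))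
        positivity
    _ = (n : ℝ) ^ m * ∑ p, ∑ q, wr (R *ᵥ ζ) ^ m * ‖ft (T p q) (R *ᵥ ζ)‖ := by
        simp only [Finset.mul_sum]
        refine Finset.sum_congr rfl fun p _ => Finset.sum_congr rfl fun q _ => ?_
        ring
    _ ≤ (n : ℝ) ^ m * ∑ _p : Fin n, ∑ _q : Fin n, a := by
        refine mul_le_mul_of_nonneg_left ?_ (by positivity)
        exact Finset.sum_le_sum fun p _ => Finset.sum_le_sum fun q _ => ha p q _
    _ = (n : ℝ) ^ (m + 2) * a := by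
        simp only [Finset.sum_const, Finset.card_univ, Fintype.card_fin, nsmul_eq_mul]
        ring

theorem vc_le (hn : 1 ≤ n) {J : Fin n → V n → ℂ} (hJ : ∀ i, Continuous (J i))
    (h0 : ∀ i, ∀ x ∉ bal n, J i x = 0) {m : ℕ} {a : ℝ}
    (ha : ∀ i, ∀ ζ : V n, wr ζ ^ m * ‖ft (J i) ζ‖ ≤ a) (i : Fin n) (ζ : V n) :
    wr ζ ^ m * ‖ft (vc R J i) ζ‖ ≤ (n : ℝ) ^ (m + 1) * a := by
  have h3 : ‖∑ p, (R i p : ℂ) * ft (J p) (R *ᵥ ζ)‖ ≤ ∑ p, ‖ft (J p) (R *ᵥ ζ)‖ := by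
    refine (norm_sum_le _ _).trans (Finset.sum_le_sum fun p _ => ?_)
    rw [norm_mul, Complex.norm_real, Real.norm_eq_abs]
    exact mul_le_of_le_one_left (norm_nonneg _) (abs_le h i p)
  rw [ft_vc h hJ h0, norm_mul, norm_ph, one_mul]
  calc wr ζ ^ m * ‖∑ p, (R i p : ℂ) * ft (J p) (R *ᵥ ζ)‖
      ≤ ((n : ℝ) ^ m * wr (R *ᵥ ζ) ^ m) * ∑ p, ‖ft (J p) (R *ᵥ ζ)‖ := by
        refine mul_le_mul (wr_pow h hn m ζ) h3 (norm_nonneg _) ?_
        have := zero_le_one.trans (wr_pos (R *ᵥ ζ))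
        positivity
    _ = (n : ℝ) ^ m * ∑ p, wr (R *ᵥ ζ) ^ m * ‖ft (J p) (R *ᵥ ζ)‖ := by
        simp only [Finset.mul_sum]
        refine Finset.sum_congr rfl fun p _ => ?_
        ring
    _ ≤ (n : ℝ) ^ m * ∑ _p : Fin n, a := by
        refine mul_le_mul_of_nonneg_left ?_ (by positivity)
        exact Finset.sum_le_sum fun p _ => ha p _
    _ = (n : ℝ) ^ (m + 1) * a := by
        simp only [Finset.sum_const, Finset.card_univ, Fintype.card_fin, nsmul_eq_mul]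
        ring

end

theorem fin_est {W W' E r b a C₁ Q A P C : ℝ} (hE : 0 ≤ E) (hP : 0 ≤ P) (hr : 0 ≤ r)
    (hC₁ : 0 ≤ C₁) (hb : 0 ≤ b) (ha : 0 ≤ a) (hW : 0 ≤ W) (w1 : W ≤ P * W') (w2 : W' ≤ P * W)
    (hCc : P * C₁ * Q * A ≤ C) (hCd : P ^ 2 * C₁ * A ^ 2 ≤ C)
    (key : W' * E ≤ C₁ * r ^ 2 * (Q * b * (A * a)) + C₁ * r ^ 3 * (A * a) ^ 2 * W') :
    W * E ≤ C * r ^ 2 * (b * a) + C * r ^ 3 * a ^ 2 * W := by
  calc W * E ≤ P * W' * E := mul_le_mul_of_nonneg_right w1 hE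
    _ = P * (W' * E) := by ring
    _ ≤ P * (C₁ * r ^ 2 * (Q * b * (A * a)) + C₁ * r ^ 3 * (A * a) ^ 2 * W') :=
        mul_le_mul_of_nonneg_left key hP
    _ ≤ P * (C₁ * r ^ 2 * (Q * b * (A * a)) + C₁ * r ^ 3 * (A * a) ^ 2 * (P * W)) := by
        refine mul_le_mul_of_nonneg_left ?_ hP
        refine add_le_add le_rfl (mul_le_mul_of_nonneg_left w2 (by positivity))
    _ = P * C₁ * Q * A * (r ^ 2 * (b * a)) + P ^ 2 * C₁ * A ^ 2 * (r ^ 3 * a ^ 2 * W) := by ring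
    _ ≤ C * (r ^ 2 * (b * a)) + C * (r ^ 3 * a ^ 2 * W) := by
        refine add_le_add (mul_le_mul_of_nonneg_right hCc (by positivity))
          (mul_le_mul_of_nonneg_right hCd (by positivity))
    _ = C * r ^ 2 * (b * a) + C * r ^ 3 * a ^ 2 * W := by ring

/-- (U_ROT) -/
theorem rot : RowINTU → RowESFU → RowES2U := by
  intro hINT hESF n N
  obtain ⟨M, C₁, hC₁, H₁⟩ := hESF n N
  obtain ⟨C₂, hC₂, H₂⟩ := hINT n (n + 2) (by omega)
  obtain ⟨C₃, hC₃, H₃⟩ := hINT n (n + 1) le_rfl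
  set A : ℝ := (n : ℝ) ^ (n + 4) * (C₂ + C₃) with hA
  set P : ℝ := (n : ℝ) ^ (n + 2) with hP
  set Q : ℝ := (n : ℝ) ^ (M + 1) with hQ
  have hA0 : 0 ≤ A := by positivity
  have hP0 : 0 ≤ P := by positivity
  have hQ0 : 0 ≤ Q := by positivity
  set C : ℝ := 1 + C₁ * Q + C₁ * A + P * C₁ * Q * A + P ^ 2 * C₁ * A ^ 2 with hC
  have hC0 : 0 < C := by positivity
  have hCa : C₁ * Q ≤ C := by
    have : 0 ≤ C₁ * A + P * C₁ * Q * A + P ^ 2 * C₁ * A ^ 2 := by positivity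
    linarith
  have hCb : C₁ * A ≤ C := by
    have : 0 ≤ C₁ * Q + P * C₁ * Q * A + P ^ 2 * C₁ * A ^ 2 := by positivity
    linarith
  have hCc : P * C₁ * Q * A ≤ C := by
    have : 0 ≤ C₁ * Q + C₁ * A + P ^ 2 * C₁ * A ^ 2 := by positivity
    linarith
  have hCd : P ^ 2 * C₁ * A ^ 2 ≤ C := by
    have : 0 ≤ C₁ * Q + C₁ * A + P * C₁ * Q * A := by positivity
    linarith
  refine ⟨M, C, hC0, ?_⟩
  intro Ω τ τi κ g q B a b hbτ hbi hbκ hCb1 hag haq ξ v hv hvξ hξ hCa1 α β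
  have hn : 1 ≤ n := by
    rcases Nat.eq_zero_or_pos n with h0 | h0
    · subst h0
      exfalso
      unfold nr at hv
      simp at hv
    · exact h0
  have hn1 : (1 : ℝ) ≤ n := by exact_mod_cast hn
  have i₀ : Fin n := ⟨0, hn⟩
  have hb0 : 0 ≤ b := cl_nonneg (hbτ α β)
  have ha0 : 0 ≤ a := by
    have h1 := hag i₀ i₀ α β 0
    refine le_trans ?_ h1
    have : 0 ≤ wt (0 : Ix n) := by
      unfold wt
      positivity
    positivity
  obtain ⟨R, h, hR⟩ := exists_refl i₀ v hv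
  have hgc : ∀ i j (α β : Fin N), ∀ x ∉ bal n, g i j x α β = 0 := by
    intro i j α β x hx
    rw [B.h0 i j x fun hh => hx (bls_sub_bal (B.sub hh))]
    rfl
  have hqc : ∀ i (α β : Fin N), ∀ x ∉ bal n, q i x α β = 0 := by
    intro i α β x hx
    rw [B.q0 i x fun hh => hx (bls_sub_bal (B.sub hh))]
    rfl
  have hg2 : ∀ i j (α β : Fin N), ∀ ζ : V n,
      wr ζ ^ (n + 2) * ‖ft (fun x => g i j x α β) ζ‖ ≤ C₂ * a := fun i j α β ζ =>
    H₂ (fun x => g i j x α β) (B.sh i j α β)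
      (fun x hx => hgc i j α β x fun hh => hx (bal_sub_core hh)) a (hag i j α β) ζ
  have hq2 : ∀ i (α β : Fin N), ∀ ζ : V n,
      wr ζ ^ (n + 1) * ‖ft (fun x => q i x α β) ζ‖ ≤ C₃ * a := fun i α β ζ =>
    H₃ (fun x => q i x α β) (B.sq i α β)
      (fun x hx => hqc i α β x fun hh => hx (bal_sub_core hh)) a (haq i α β) ζ
  have hg3 : ∀ i j (α β : Fin N), ∀ ζ : V n,
      wr ζ ^ (n + 2) * ‖ft (fun x => TR R g i j x α β) ζ‖ ≤ A * a := by
    intro i j α β ζ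
    rw [TR_entry]
    refine (tc_le h hn (T := fun a b x => g a b x α β) (fun i j => (B.sh i j α β).continuous)
      (fun i j => hgc i j α β) (fun i j => hg2 i j α β) i j ζ).trans ?_
    rw [hA]
    have e1 : (n : ℝ) ^ (n + 2 + 2) * (C₂ * a) = (n : ℝ) ^ (n + 4) * C₂ * a := by ring
    rw [e1]
    refine mul_le_mul_of_nonneg_right (mul_le_mul_of_nonneg_left ?_ (by positivity)) ha0
    linarith
  have hq3 : ∀ i (α β : Fin N), ∀ ζ : V n,
      wr ζ ^ (n + 1) * ‖ft (fun x => KR R q i x α β) ζ‖ ≤ A * a := by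
    intro i α β ζ
    rw [KR_entry]
    refine (vc_le h hn (J := fun a x => q a x α β) (fun i => (B.sq i α β).continuous)
      (fun i => hqc i α β) (fun i => hq2 i α β) i ζ).trans ?_
    rw [hA]
    have e1 : (n : ℝ) ^ (n + 1 + 1) * (C₃ * a) = (n : ℝ) ^ (n + 2) * C₃ * a := by ring
    rw [e1]
    refine mul_le_mul_of_nonneg_right ?_ ha0
    refine mul_le_mul (pow_le_pow_right₀ hn1 (by omega)) (by linarith) hC₃.le (by positivity)
  have hη : (R *ᵥ ξ) i₀ = 0 := by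
    simp only [Matrix.mulVec, dotProduct]
    rw [← hvξ]
    exact Finset.sum_congr rfl fun j _ => by rw [h.sy i₀ j, hR]
  have hnr : nr (R *ᵥ ξ) = nr ξ := nr_mv h ξ
  have hnr0 : 0 ≤ nr ξ := Real.sqrt_nonneg _
  have hQb : ∀ {F : Type} [NormedAddCommGroup F] [NormedSpace ℝ F] {f : V n → F},
      Cl M ((n : ℝ) ^ M * b) f → Cl M (Q * b) f := by
    intro F _ _ f hf
    refine cl_mono hf ?_
    exact mul_le_mul_of_nonneg_right (pow_le_pow_right₀ hn1 (Nat.le_succ M)) hb0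
  have hτ' : ClC M (Q * b) (fun x => τ (rho R x) - 1) := by
    intro α β
    exact hQb (cl_rho h hn (f := fun x => (τ x - 1) α β)
      (by
        have h1 : (fun x => (τ x - 1) α β) = fun x => τ x α β - (1 : Matrix (Fin N) (Fin N) ℂ) α β :=
          rfl
        rw [h1]
        exact (B.sτ α β).sub contDiff_const) (hbτ α β))
  have hi' : ClC M (Q * b) (fun x => τi (rho R x) - 1) := by
    intro α β
    exact hQb (cl_rho h hn (f := fun x => (τi x - 1) α β)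
      (by
        have h1 : (fun x => (τi x - 1) α β) = fun x => τi x α β - (1 : Matrix (Fin N) (Fin N) ℂ) α β :=
          rfl
        rw [h1]
        exact (B.si α β).sub contDiff_const) (hbi α β))
  have hκ' : ∀ i, ClC M (Q * b) (KR R κ i) := by
    intro i α β
    show Cl M (Q * b) (fun x => KR R κ i x α β)
    rw [KR_entry]
    exact cl_vc h hn (fun a => B.sκ a α β) (fun a => hbκ a α β) i
  have key := H₁ i₀ (rho R ⁻¹' Ω) (fun x => τ (rho R x)) (fun x => τi (rho R x)) (KR R κ)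
    (TR R g) (KR R q) (bkU_tr h B) (A * a) (Q * b) hτ' hi' hκ'
    (by
      calc C₁ * (Q * b) = C₁ * Q * b := by ring
        _ ≤ C * b := mul_le_mul_of_nonneg_right hCa hb0
        _ ≤ 1 := hCb1)
    hg3 hq3 (R *ᵥ ξ) hη (by rw [hnr]; exact hξ)
    (by
      rw [hnr]
      calc C₁ * nr ξ * (A * a) = C₁ * A * (nr ξ * a) := by ring
        _ ≤ C * (nr ξ * a) := mul_le_mul_of_nonneg_right hCb (by positivity)
        _ = C * nr ξ * a := by ring
        _ ≤ 1 := hCa1) α β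
  rw [hnr] at key
  set T : Fin n → Fin n → ℂ := fun i j => ft (fun x => g i j x α β) ξ with hT
  have e1 : ∀ i j, ft (fun x => TR R g i j x α β) (R *ᵥ ξ) =
      ph R (R *ᵥ ξ) * ∑ a, ∑ b, (R i a : ℂ) * R j b * T a b := by
    intro i j
    rw [TR_entry, ft_tc h (fun i j => (B.sh i j α β).continuous) (fun i j => hgc i j α β),
      mv_mv h]
  have f1 : ∀ i, ft (fun x => KR R q i x α β) (R *ᵥ ξ) =
      ph R (R *ᵥ ξ) * ∑ a, (R i a : ℂ) * ft (fun x => q a x α β) ξ := by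
    intro i
    rw [KR_entry, ft_vc h (fun i => (B.sq i α β).continuous) (fun i => hqc i α β), mv_mv h]
  have e4 : ∀ a, R i₀ a = v a := fun a => by rw [h.sy i₀ a, hR]
  have e2 : ((nr ξ : ℝ) : ℂ) ^ 2 * ft (fun x => TR R g i₀ i₀ x α β) (R *ᵥ ξ)
      + ∑ i, ∑ j, (((R *ᵥ ξ) i : ℝ) : ℂ) * (R *ᵥ ξ) j *
        ft (fun x => TR R g i j x α β) (R *ᵥ ξ) =
      ph R (R *ᵥ ξ) * (((nr ξ : ℝ) : ℂ) ^ 2 * (∑ i, ∑ j, (v i : ℂ) * v j * T i j)
        + ∑ i, ∑ j, (ξ i : ℂ) * ξ j * T i j) := by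
    simp only [e1]
    have e3 := form_id h T (R *ᵥ ξ)
    rw [mv_mv h] at e3
    rw [← e3]
    simp only [e4]
    rw [mul_add, Finset.mul_sum (s := Finset.univ) (f := fun i => ∑ j, (((R *ᵥ ξ) i : ℝ) : ℂ) *
      (R *ᵥ ξ) j * ∑ a, ∑ b, (R i a : ℂ) * R j b * T a b)]
    congr 1
    · ring
    · refine Finset.sum_congr rfl fun i _ => ?_
      rw [Finset.mul_sum]
      refine Finset.sum_congr rfl fun j _ => ?_
      ring
  have f2 : ft (fun x => KR R q i₀ x α β) (R *ᵥ ξ) =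
      ph R (R *ᵥ ξ) * ∑ i, (v i : ℂ) * ft (fun x => q i x α β) ξ := by
    rw [f1 i₀]
    simp only [e4]
  rw [e2, f2, norm_mul, norm_mul, norm_ph, one_mul, one_mul] at key
  have w1 : wr ξ ^ (n + 2) ≤ P * wr (R *ᵥ ξ) ^ (n + 2) := wr_pow h hn _ ξ
  have w2 : wr (R *ᵥ ξ) ^ (n + 2) ≤ P * wr ξ ^ (n + 2) := wr_pow' h hn _ ξ
  have hwξ : 0 ≤ wr ξ ^ (n + 2) := pow_nonneg (zero_le_one.trans (wr_pos ξ)) _
  exact ⟨fin_est (norm_nonneg _) hP0 hnr0 hC₁.le hb0 ha0 hwξ w1 w2 hCc hCd key.1,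
    fin_est (mul_nonneg hnr0 (norm_nonneg _)) hP0 hnr0 hC₁.le hb0 ha0 hwξ w1 w2 hCc hCd key.2⟩

end Vale.Agent.P088.LR.U.R952
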