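import Vale.Agent.P088.H952.JTr

/-!
# P088, stage J, rotation row: complex coefficients
-/

open MeasureTheory Set
open scoped ContDiff Matrix

noncomputable section

namespace Vale.Agent.P088.LR.CF.H952

open Vale.Agent.P088.LR Vale.Agent.P088.LR.CF

variable {n : ℕ}

/-- The reflected complex tensor. -/
def tc (R : Matrix (Fin n) (Fin n) ℝ) (T : Fin n → Fin n → V n → ℂ) (i j : Fin n) (x : V n) : ℂ :=
  ∑ a, ∑ b, (R i a : ℂ) * R j b * T a b (rho R x)

/-- The reflected complex vector field. -/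
def vc (R : Matrix (Fin n) (Fin n) ℝ) (J : Fin n → V n → ℂ) (k : Fin n) (x : V n) : ℂ :=
  ∑ i, (R k i : ℂ) * J i (rho R x)

theorem contDiff_tc (R : Matrix (Fin n) (Fin n) ℝ) {T : Fin n → Fin n → V n → ℂ}
    (hT : ∀ i j, ContDiff ℝ ∞ (T i j)) (i j : Fin n) : ContDiff ℝ ∞ (tc R T i j) :=
  ContDiff.sum fun a _ => ContDiff.sum fun b _ =>
    contDiff_const.mul ((hT a b).comp (contDiff_rho R))

theorem contDiff_vc (R : Matrix (Fin n) (Fin n) ℝ) {J : Fin n → V n → ℂ}
    (hJ : ∀ j, ContDiff ℝ ∞ (J j)) (k : Fin n) : ContDiff ℝ ∞ (vc R J k) :=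
  ContDiff.sum fun i _ => contDiff_const.mul ((hJ i).comp (contDiff_rho R))

/-- algebra: double contraction -/
theorem alg_tc (R : Matrix (Fin n) (Fin n) ℝ) (T : Fin n → Fin n → ℂ) (p q : Fin n → ℂ) :
    ∑ i, ∑ j, (∑ a, ∑ b, (R i a : ℂ) * R j b * T a b) * p i * q j =
      ∑ a, ∑ b, T a b * (∑ i, (R i a : ℂ) * p i) * ∑ j, (R j b : ℂ) * q j := by
  calc ∑ i, ∑ j, (∑ a, ∑ b, (R i a : ℂ) * R j b * T a b) * p i * q j
      = ∑ i, ∑ j, ∑ a, ∑ b, (R i a : ℂ) * R j b * T a b * p i * q j := by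
        refine Finset.sum_congr rfl fun i _ => Finset.sum_congr rfl fun j _ => ?_
        simp only [Finset.sum_mul]
    _ = ∑ i, ∑ a, ∑ j, ∑ b, (R i a : ℂ) * R j b * T a b * p i * q j := by
        refine Finset.sum_congr rfl fun i _ => ?_
        rw [Finset.sum_comm]
    _ = ∑ a, ∑ i, ∑ b, ∑ j, (R i a : ℂ) * R j b * T a b * p i * q j := by
        rw [Finset.sum_comm]
        refine Finset.sum_congr rfl fun a _ => Finset.sum_congr rfl fun i _ => ?_
        rw [Finset.sum_comm]
    _ = ∑ a, ∑ b, ∑ i, ∑ j, (R i a : ℂ) * R j b * T a b * p i * q j := by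
        refine Finset.sum_congr rfl fun a _ => ?_
        rw [Finset.sum_comm]
    _ = _ := by
        refine Finset.sum_congr rfl fun a _ => Finset.sum_congr rfl fun b _ => ?_
        rw [mul_assoc, Finset.sum_mul_sum, Finset.mul_sum]
        refine Finset.sum_congr rfl fun i _ => ?_
        rw [Finset.mul_sum]
        refine Finset.sum_congr rfl fun j _ => ?_
        ring

section

variable {R : Matrix (Fin n) (Fin n) ℝ} (h : Rf R)

include h

theorem pd_comp_rho {W : V n → ℂ} (hW : ContDiff ℝ ∞ W) (y : V n) (j : Fin n) :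
    pd j (fun x => W (rho R x)) (rho R y) = ∑ l, (R l j : ℂ) * pd l W y := by
  rw [pd_rho_c R ((hW.differentiable (by simp)) _), rho_rho h]

/-- flux in the second index -/
theorem flux_tc (T : Fin n → Fin n → V n → ℂ) {W : V n → ℂ} (hW : ContDiff ℝ ∞ W) (y : V n)
    (k : Fin n) : ∑ l, tc R T k l y * pd l W y = ∑ i, (R k i : ℂ) *
      ∑ j, T i j (rho R y) * pd j (fun x => W (rho R x)) (rho R y) := by
  simp only [pd_comp_rho h hW]
  unfold tc
  simp only [Finset.sum_mul, Finset.mul_sum]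
  rw [Finset.sum_comm]
  refine Finset.sum_congr rfl fun i _ => ?_
  rw [Finset.sum_comm]
  refine Finset.sum_congr rfl fun j _ => Finset.sum_congr rfl fun l _ => ?_
  ring

/-- flux in the first index -/
theorem flux_tc' (T : Fin n → Fin n → V n → ℂ) {W : V n → ℂ} (hW : ContDiff ℝ ∞ W) (y : V n)
    (k : Fin n) : ∑ l, tc R T l k y * pd l W y = ∑ i, (R k i : ℂ) *
      ∑ j, T j i (rho R y) * pd j (fun x => W (rho R x)) (rho R y) := by
  have h1 := flux_tc h (fun i j => T j i) hW y k
  have h2 : ∀ l, tc R (fun i j => T j i) k l y = tc R T l k y := by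
    intro l
    unfold tc
    rw [Finset.sum_comm]
    refine Finset.sum_congr rfl fun a _ => Finset.sum_congr rfl fun b _ => ?_
    ring
  simp only [h2] at h1
  exact h1

/-- divergence of a rotated field -/
theorem div_rot {F : Fin n → V n → ℂ} (hF : ∀ i, ContDiff ℝ ∞ (F i)) (y : V n) :
    ∑ k, pd k (fun y => ∑ i, (R k i : ℂ) * F i (rho R y)) y = ∑ i, pd i (F i) (rho R y) := by
  have h2 : ∀ k, pd k (fun y => ∑ i, (R k i : ℂ) * F i (rho R y)) y =
      ∑ i, (R k i : ℂ) * ∑ m, (R m k : ℂ) * pd m (F i) (rho R y) := by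
    intro k
    rw [pd_sum (f := fun i y => F i (rho R y)) (fun i => (((hF i).comp (contDiff_rho R)).differentiable
      (by simp)) y) (fun i => (R k i : ℂ)) k]
    refine Finset.sum_congr rfl fun i _ => ?_
    rw [pd_rho_c R (((hF i).differentiable (by simp)) _)]
  simp only [h2]
  calc ∑ k, ∑ i, (R k i : ℂ) * ∑ m, (R m k : ℂ) * pd m (F i) (rho R y)
      = ∑ i, ∑ m, (∑ k, (R m k : ℂ) * R k i) * pd m (F i) (rho R y) := by
        simp only [Finset.mul_sum, Finset.sum_mul]
        rw [Finset.sum_comm]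
        refine Finset.sum_congr rfl fun i _ => ?_
        rw [Finset.sum_comm]
        refine Finset.sum_congr rfl fun m _ => Finset.sum_congr rfl fun k _ => ?_
        ring
    _ = ∑ i, ∑ m, (if m = i then (1 : ℂ) else 0) * pd m (F i) (rho R y) := by
        refine Finset.sum_congr rfl fun i _ => Finset.sum_congr rfl fun m _ => ?_
        congr 1
        have h3 := h.sq m i
        have h4 : ∑ k, (R m k : ℂ) * R k i = ((∑ k, R m k * R k i : ℝ) : ℂ) := by
          push_cast
          rfl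
        rw [h4, h3]
        split_ifs <;> simp
    _ = ∑ i, pd i (F i) (rho R y) := by
        refine Finset.sum_congr rfl fun i _ => ?_
        simp

theorem div_vc {J : Fin n → V n → ℂ} (hJ : ∀ i, ContDiff ℝ ∞ (J i)) (y : V n) :
    ∑ k, pd k (vc R J k) y = ∑ i, pd i (J i) (rho R y) := div_rot h hJ y

/-- contraction with the gradient -/
theorem jd_vc (J : Fin n → V n → ℂ) {W : V n → ℂ} (hW : ContDiff ℝ ∞ W) (y : V n) :
    ∑ k, vc R J k y * pd k W y = ∑ i, J i (rho R y) * pd i (fun x => W (rho R x)) (rho R y) := by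
  unfold vc
  rw [alg_v R (fun i => J i (rho R y)) fun k => pd k W y]
  refine Finset.sum_congr rfl fun i _ => ?_
  rw [pd_comp_rho h hW]

/-- the bilinear form -/
theorem bil_tc (T : Fin n → Fin n → V n → ℂ) {U W : V n → ℂ} (hU : ContDiff ℝ ∞ U)
    (hW : ContDiff ℝ ∞ W) (y : V n) :
    ∑ i, ∑ j, tc R T i j y * pd i U y * pd j W y =
      ∑ a, ∑ b, T a b (rho R y) * pd a (fun x => U (rho R x)) (rho R y) *
        pd b (fun x => W (rho R x)) (rho R y) := by
  unfold tc
  rw [alg_tc R (fun a b => T a b (rho R y)) (fun i => pd i U y) fun j => pd j W y]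
  refine Finset.sum_congr rfl fun a _ => Finset.sum_congr rfl fun b _ => ?_
  rw [pd_comp_rho h hU, pd_comp_rho h hW]

/-- Fourier transforms -/
theorem ft_vc {J : Fin n → V n → ℂ} (hJ : ∀ j, Continuous (J j))
    (h0 : ∀ j, ∀ x ∉ bal n, J j x = 0) (k : Fin n) (ζ : V n) :
    ft (vc R J k) ζ = ph R ζ * ∑ i, (R k i : ℂ) * ft (J i) (R *ᵥ ζ) := by
  have h2 : ∀ i, Integrable fun x => J i (rho R x) * ex (-ζ) x := by
    intro i
    refine (((hJ i).comp (contDiff_rho R).continuous).mul
      (continuous_ex _)).integrable_of_hasCompactSupport ?_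
    refine HasCompactSupport.intro isCompact_core fun x hx => ?_
    show J i (rho R x) * ex (-ζ) x = 0
    rw [h0 i _ fun hh => hx (bal_sub_core ((rho_mem_bal h).1 hh)), zero_mul]
  have h3 : ft (vc R J k) ζ = ∑ i, (R k i : ℂ) * ft (fun x => J i (rho R x)) ζ := by
    unfold ft
    have h4 : ∀ x, vc R J k x * ex (-ζ) x =
        ∑ i, (R k i : ℂ) * (J i (rho R x) * ex (-ζ) x) := by
      intro x
      unfold vc
      rw [Finset.sum_mul]
      exact Finset.sum_congr rfl fun i _ => by ring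
    simp only [h4]
    rw [integral_finsetSum _ fun i _ => (h2 i).const_mul _]
    exact Finset.sum_congr rfl fun i _ => integral_const_mul _ _
  rw [h3]
  simp only [ft_rho h, Finset.mul_sum]
  exact Finset.sum_congr rfl fun i _ => by ring

theorem ft_tc {T : Fin n → Fin n → V n → ℂ} (hT : ∀ i j, Continuous (T i j))
    (h0 : ∀ i j, ∀ x ∉ bal n, T i j x = 0) (i j : Fin n) (ζ : V n) :
    ft (tc R T i j) ζ = ph R ζ * ∑ a, ∑ b, (R i a : ℂ) * R j b * ft (T a b) (R *ᵥ ζ) := by
  have h2 : ∀ a b, Integrable fun x => T a b (rho R x) * ex (-ζ) x := by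
    intro a b
    refine (((hT a b).comp (contDiff_rho R).continuous).mul
      (continuous_ex _)).integrable_of_hasCompactSupport ?_
    refine HasCompactSupport.intro isCompact_core fun x hx => ?_
    show T a b (rho R x) * ex (-ζ) x = 0
    rw [h0 a b _ fun hh => hx (bal_sub_core ((rho_mem_bal h).1 hh)), zero_mul]
  have h3 : ft (tc R T i j) ζ =
      ∑ a, ∑ b, (R i a : ℂ) * R j b * ft (fun x => T a b (rho R x)) ζ := by
    unfold ft
    have h4 : ∀ x, tc R T i j x * ex (-ζ) x =
        ∑ a, ∑ b, (R i a : ℂ) * R j b * (T a b (rho R x) * ex (-ζ) x) := by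
      intro x
      unfold tc
      rw [Finset.sum_mul]
      refine Finset.sum_congr rfl fun a _ => ?_
      rw [Finset.sum_mul]
      refine Finset.sum_congr rfl fun b _ => ?_
      ring
    simp only [h4]
    rw [integral_finsetSum _ fun a _ => integrable_finsetSum _ fun b _ => (h2 a b).const_mul _]
    refine Finset.sum_congr rfl fun a _ => ?_
    rw [integral_finsetSum _ fun b _ => (h2 a b).const_mul _]
    exact Finset.sum_congr rfl fun b _ => integral_const_mul _ _
  rw [h3]
  simp only [ft_rho h, Finset.mul_sum]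
  refine Finset.sum_congr rfl fun a _ => Finset.sum_congr rfl fun b _ => ?_
  ring

/-- `Cl` bounds -/
theorem cl_vc (hn : 1 ≤ n) {J : Fin n → V n → ℂ} (hJ : ∀ j, ContDiff ℝ ∞ (J j)) {M : ℕ} {b : ℝ}
    (hb : ∀ j, Cl M b (J j)) (k : Fin n) : Cl M ((n : ℝ) ^ (M + 1) * b) (vc R J k) := by
  have h2 := cl_sum (f := fun i x => J i (rho R x)) (c := fun i => R k i)
    (fun i => (hJ i).comp (contDiff_rho R)) (fun i => abs_le h k i)
    (fun i => cl_rho h hn (hJ i) (hb i))
  have h3 : (n : ℝ) * ((n : ℝ) ^ M * b) = (n : ℝ) ^ (M + 1) * b := by ring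
  rw [h3] at h2
  exact h2

theorem cl_tc (hn : 1 ≤ n) {T : Fin n → Fin n → V n → ℂ} (hT : ∀ i j, ContDiff ℝ ∞ (T i j))
    {M : ℕ} {b : ℝ} (hb : ∀ i j, Cl M b (T i j)) (i j : Fin n) :
    Cl M ((n : ℝ) ^ (M + 2) * b) (tc R T i j) := by
  have h1 : ∀ a, Cl M ((n : ℝ) ^ (M + 1) * b) fun x => ∑ b, (R j b : ℂ) * T a b (rho R x) := by
    intro a
    exact cl_vc h hn (J := fun b => T a b) (fun b => hT a b) (fun b => hb a b) j
  have h2 := cl_sum (f := fun a x => ∑ b, (R j b : ℂ) * T a b (rho R x)) (c := fun a => R i a)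
    (fun a => contDiff_vc R (J := fun b => T a b) (fun b => hT a b) j)
    (fun a => abs_le h i a) h1
  have h3 : (n : ℝ) * ((n : ℝ) ^ (M + 1) * b) = (n : ℝ) ^ (M + 2) * b := by ring
  rw [h3] at h2
  have h4 : tc R T i j = fun x => ∑ a, (R i a : ℂ) * ∑ b, (R j b : ℂ) * T a b (rho R x) := by
    funext x
    unfold tc
    refine Finset.sum_congr rfl fun a _ => ?_
    rw [Finset.mul_sum]
    exact Finset.sum_congr rfl fun b _ => by ring
  rw [h4]
  exact h2

end

end Vale.Agent.P088.LR.CF.H952
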