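import Vale.Agent.P088.H952.CFRot

/-!
# P088, stage J, rotation row: transformation of the vector density
-/

open MeasureTheory Set
open scoped ContDiff Matrix

noncomputable section

namespace Vale.Agent.P088.LR.CF.H952

open Vale.Agent.P088.LR Vale.Agent.P088.LR.CF

variable {n : ℕ}

/-- The reflected vector field. -/
def fv (R : Matrix (Fin n) (Fin n) ℝ) (J : Fin n → V n → ℝ) (k : Fin n) (x : V n) : ℝ :=
  ∑ i, R k i * J i (rho R x)

/-- `∑_j J_j ∂_j w` -/
def jd (J : Fin n → V n → ℝ) (w : V n → ℂ) (x : V n) : ℂ := ∑ j, (J j x : ℂ) * pd j w x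

theorem contDiff_fv (R : Matrix (Fin n) (Fin n) ℝ) {J : Fin n → V n → ℝ}
    (hJ : ∀ j, ContDiff ℝ ∞ (J j)) (k : Fin n) : ContDiff ℝ ∞ (fv R J k) :=
  ContDiff.sum fun i _ => contDiff_const.mul ((hJ i).comp (contDiff_rho R))

/-- algebra for the vector field -/
theorem alg_v (R : Matrix (Fin n) (Fin n) ℝ) (J p : Fin n → ℂ) :
    ∑ k, (∑ i, (R k i : ℂ) * J i) * p k = ∑ i, J i * ∑ k, (R k i : ℂ) * p k := by
  simp only [Finset.sum_mul, Finset.mul_sum]
  rw [Finset.sum_comm]
  refine Finset.sum_congr rfl fun i _ => Finset.sum_congr rfl fun k _ => ?_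
  ring

theorem fv_ofReal (R : Matrix (Fin n) (Fin n) ℝ) (J : Fin n → V n → ℝ) (k : Fin n) (x : V n) :
    ((fv R J k x : ℝ) : ℂ) = ∑ i, (R k i : ℂ) * (J i (rho R x) : ℂ) := by
  unfold fv
  push_cast
  rfl

section

variable {R : Matrix (Fin n) (Fin n) ℝ} (h : Rf R)

include h

theorem jd_tr (J : Fin n → V n → ℝ) {W : V n → ℂ} (hW : ContDiff ℝ ∞ W) (y : V n) :
    jd (fv R J) W y = jd J (fun x => W (rho R x)) (rho R y) := by
  unfold jd
  simp only [fv_ofReal]
  rw [alg_v]
  refine Finset.sum_congr rfl fun i _ => ?_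
  rw [pd_rho_c R ((hW.differentiable (by simp)) _), rho_rho h]

/-- the bilinear form with the vector field -/
theorem fv_bilin (J : Fin n → V n → ℝ) {U W : V n → ℂ} (hU : ContDiff ℝ ∞ U)
    (hW : ContDiff ℝ ∞ W) (y : V n) :
    ∑ j, (fv R J j y : ℂ) * (U y * pd j W y - W y * pd j U y) =
      ∑ j, (J j (rho R y) : ℂ) * (U (rho R (rho R y)) * pd j (fun x => W (rho R x)) (rho R y) -
        W (rho R (rho R y)) * pd j (fun x => U (rho R x)) (rho R y)) := by
  have e1 := jd_tr h J hW y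
  have e2 := jd_tr h J hU y
  unfold jd at e1 e2
  rw [rho_rho h]
  calc ∑ j, (fv R J j y : ℂ) * (U y * pd j W y - W y * pd j U y)
      = U y * (∑ j, (fv R J j y : ℂ) * pd j W y) - W y * ∑ j, (fv R J j y : ℂ) * pd j U y := by
        rw [Finset.mul_sum, Finset.mul_sum, ← Finset.sum_sub_distrib]
        exact Finset.sum_congr rfl fun j _ => by ring
    _ = _ := by
        rw [e1, e2, Finset.mul_sum, Finset.mul_sum, ← Finset.sum_sub_distrib]
        exact Finset.sum_congr rfl fun j _ => by ring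

/-- divergence of the reflected field -/
theorem div_fv {J : Fin n → V n → ℝ} (hJ : ∀ j, ContDiff ℝ ∞ (J j)) (y : V n) :
    ∑ k, pd k (fv R J k) y = ∑ i, pd i (J i) (rho R y) := by
  have h2 : ∀ k, pd k (fv R J k) y = ∑ i, R k i * ∑ m, R m k * pd m (J i) (rho R y) := by
    intro k
    have h3 : HasFDerivAt (fv R J k) (∑ i, R k i • fderiv ℝ (fun x => J i (rho R x)) y) y := by
      unfold fv
      refine HasFDerivAt.fun_sum fun i _ => ?_
      exact ((((hJ i).comp (contDiff_rho R)).differentiable (by simp)) y).hasFDerivAt.const_mul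
        (R k i)
    unfold pd
    rw [h3.fderiv, sum_apply]
    refine Finset.sum_congr rfl fun i _ => ?_
    have h4 := pd_rho R (((hJ i).differentiable (by simp)) (rho R y)) k
    unfold pd at h4
    simp only [smul_apply, smul_eq_mul] at h4 ⊢
    rw [h4]
  simp only [h2]
  calc ∑ k, ∑ i, R k i * ∑ m, R m k * pd m (J i) (rho R y)
      = ∑ i, ∑ m, (∑ k, R m k * R k i) * pd m (J i) (rho R y) := by
        simp only [Finset.mul_sum, Finset.sum_mul]
        rw [Finset.sum_comm]
        refine Finset.sum_congr rfl fun i _ => ?_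
        rw [Finset.sum_comm]
        refine Finset.sum_congr rfl fun m _ => Finset.sum_congr rfl fun k _ => ?_
        ring
    _ = ∑ i, ∑ m, (if m = i then (1 : ℝ) else 0) * pd m (J i) (rho R y) := by
        refine Finset.sum_congr rfl fun i _ => Finset.sum_congr rfl fun m _ => ?_
        rw [h.sq m i]
    _ = ∑ i, pd i (J i) (rho R y) := by
        refine Finset.sum_congr rfl fun i _ => ?_
        simp

/-- `Cl` bounds of the reflected field -/
theorem cl_fv (hn : 1 ≤ n) {J : Fin n → V n → ℝ} (hJ : ∀ j, ContDiff ℝ ∞ (J j)) {M : ℕ} {b : ℝ}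
    (hb : ∀ j, Cl M b (J j)) (k : Fin n) : Cl M ((n : ℝ) ^ (M + 1) * b) (fv R J k) := by
  intro l hl x
  have h2 : ∀ i, ContDiffAt ℝ l (fun x => R k i • J i (rho R x)) x := by
    intro i
    have h4 : ContDiff ℝ ∞ (fun x => R k i • J i (rho R x)) :=
      ((hJ i).comp (contDiff_rho R)).const_smul (R k i)
    exact (h4.of_le (by exact_mod_cast le_top)).contDiffAt
  have h1 : fv R J k = fun x => ∑ i, R k i • J i (rho R x) := rfl
  rw [h1, iteratedFDeriv_fun_sum_apply fun i _ => h2 i]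
  refine (norm_sum_le _ _).trans ?_
  have h3 : ∀ i ∈ Finset.univ, ‖iteratedFDeriv ℝ l (fun x => R k i • J i (rho R x)) x‖ ≤
      (n : ℝ) ^ M * b := by
    intro i _
    have h4 : ContDiffAt ℝ l (fun x => J i (rho R x)) x :=
      (((hJ i).comp (contDiff_rho R)).of_le (by exact_mod_cast le_top)).contDiffAt
    rw [iteratedFDeriv_const_smul_apply' h4, norm_smul, Real.norm_eq_abs]
    exact (mul_le_of_le_one_left (norm_nonneg _) (abs_le h k i)).trans
      (cl_rho h hn (hJ i) (hb i) l hl x)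
  refine (Finset.sum_le_sum h3).trans (le_of_eq ?_)
  simp
  ring

/-- Fourier transform of the reflected field -/
theorem ft_fv {J : Fin n → V n → ℝ} (hJ : ∀ j, ContDiff ℝ ∞ (J j))
    (h0 : ∀ j, ∀ x ∉ bal n, J j x = 0) (k : Fin n) (ζ : V n) :
    ft (fun x => ((fv R J k x : ℝ) : ℂ)) ζ =
      ph R ζ * ∑ i, (R k i : ℂ) * ft (fun x => (J i x : ℂ)) (R *ᵥ ζ) := by
  have hc : ∀ i, Continuous fun x => (J i x : ℂ) := fun i =>
    Complex.continuous_ofReal.comp (hJ i).continuous
  have h2 : ∀ i, Integrable fun x => (J i (rho R x) : ℂ) * ex (-ζ) x := by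
    intro i
    refine (((hc i).comp (contDiff_rho R).continuous).mul
      (continuous_ex _)).integrable_of_hasCompactSupport ?_
    refine HasCompactSupport.intro isCompact_core fun x hx => ?_
    show (J i (rho R x) : ℂ) * ex (-ζ) x = 0
    rw [h0 i _ fun hh => hx (bal_sub_core ((rho_mem_bal h).1 hh)), Complex.ofReal_zero, zero_mul]
  have h3 : ft (fun x => ((fv R J k x : ℝ) : ℂ)) ζ =
      ∑ i, (R k i : ℂ) * ft (fun x => (J i (rho R x) : ℂ)) ζ := by
    unfold ft
    have h4 : ∀ x, ((fv R J k x : ℝ) : ℂ) * ex (-ζ) x =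
        ∑ i, (R k i : ℂ) * ((J i (rho R x) : ℂ) * ex (-ζ) x) := by
      intro x
      rw [fv_ofReal, Finset.sum_mul]
      exact Finset.sum_congr rfl fun i _ => by ring
    simp only [h4]
    rw [integral_finsetSum _ fun i _ => (h2 i).const_mul _]
    exact Finset.sum_congr rfl fun i _ => integral_const_mul _ _
  have h5 : ∀ i, ft (fun x => (J i (rho R x) : ℂ)) ζ =
      ph R ζ * ft (fun x => (J i x : ℂ)) (R *ᵥ ζ) := fun i =>
    ft_rho h (fun x => (J i x : ℂ)) ζ
  rw [h3]
  simp only [h5, Finset.mul_sum]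
  exact Finset.sum_congr rfl fun i _ => by ring

end

end Vale.Agent.P088.LR.CF.H952
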