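import Vale.Agent.P088.H442.Defs3

/-!
# P088, row CF_ROT, first part: reflections about the centre of the cube
-/

open MeasureTheory Set
open scoped ContDiff Matrix

noncomputable section

namespace Vale.Agent.P088.LR.CF.H952

open Vale.Agent.P088.LR Vale.Agent.P088.LR.CF

variable {n : ℕ}

/-- A symmetric orthogonal matrix. -/
structure Rf (R : Matrix (Fin n) (Fin n) ℝ) : Prop where
  sy : ∀ i j, R i j = R j i
  sq : ∀ i j, ∑ k, R i k * R k j = if i = j then 1 else 0

theorem sum_ite_l (i : Fin n) (f : Fin n → ℝ) : ∑ k, (if i = k then (1 : ℝ) else 0) * f k = f i := by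
  simp

/-- The Householder reflection which maps `e_{i₀}` to `q`. -/
theorem exists_refl (i₀ : Fin n) (q : V n) (hq : nr q = 1) :
    ∃ R : Matrix (Fin n) (Fin n) ℝ, Rf R ∧ ∀ k, R k i₀ = q k := by
  have hq1 : ∑ j, q j ^ 2 = 1 := by
    have h0 : (0 : ℝ) ≤ ∑ j, q j ^ 2 := Finset.sum_nonneg fun j _ => sq_nonneg _
    have h1 : √(∑ j, q j ^ 2) ^ 2 = ∑ j, q j ^ 2 := Real.sq_sqrt h0
    unfold nr at hq
    rw [hq] at h1
    linarith
  set v : V n := fun j => (if j = i₀ then (1 : ℝ) else 0) - q j with hv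
  set N : ℝ := ∑ j, v j ^ 2 with hN
  have hN1 : N = 2 - 2 * q i₀ := by
    have h1 : ∀ j, v j ^ 2 = (if j = i₀ then (1 : ℝ) else 0) - 2 * ((if j = i₀ then (1 : ℝ) else 0) *
        q j) + q j ^ 2 := by
      intro j
      rw [hv]
      by_cases h : j = i₀
      · simp [h]; ring
      · simp [h]
    rw [hN, Finset.sum_congr rfl fun j _ => h1 j, Finset.sum_add_distrib, Finset.sum_sub_distrib,
      ← Finset.mul_sum, hq1]
    simp
    ring
  by_cases h0 : N = 0
  · refine ⟨1, ⟨fun i j => by simp [Matrix.one_apply, eq_comm], fun i j => ?_⟩, fun k => ?_⟩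
    · simp [Matrix.one_apply]
    · have h1 : ∀ j ∈ Finset.univ, v j ^ 2 = 0 :=
        (Finset.sum_eq_zero_iff_of_nonneg fun j _ => sq_nonneg (v j)).1 (hN ▸ h0)
      have h2 : v k = 0 := by
        have := h1 k (Finset.mem_univ k)
        exact pow_eq_zero_iff (two_ne_zero) |>.1 this
      rw [hv] at h2
      simp only at h2
      rw [Matrix.one_apply]
      linarith
  · refine ⟨fun i j => (if i = j then (1 : ℝ) else 0) - 2 / N * v i * v j,
      ⟨fun i j => ?_, fun i j => ?_⟩, fun k => ?_⟩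
    · by_cases h : i = j
      · rw [h]
      · have h' : ¬ j = i := fun hh => h hh.symm
        simp only [h, h', if_false]
        ring
    · have h1 : ∀ k, ((if i = k then (1 : ℝ) else 0) - 2 / N * v i * v k) *
          ((if k = j then (1 : ℝ) else 0) - 2 / N * v k * v j) =
          (if i = k then (1 : ℝ) else 0) * ((if k = j then (1 : ℝ) else 0) - 2 / N * v k * v j)
            - (if j = k then (1 : ℝ) else 0) * (2 / N * v i * v k)
            + (2 / N * v i * (2 / N) * v j) * v k ^ 2 := by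
        intro k
        have h2 : (if k = j then (1 : ℝ) else 0) = if j = k then (1 : ℝ) else 0 := by
          by_cases h : k = j
          · simp [h]
          · have h' : ¬ j = k := fun hh => h hh.symm
            simp [h, h']
        rw [h2]
        ring
      rw [Finset.sum_congr rfl fun k _ => h1 k, Finset.sum_add_distrib, Finset.sum_sub_distrib,
        sum_ite_l, sum_ite_l, ← Finset.mul_sum, ← hN]
      field_simp
      ring
    · have h1 : v i₀ = N / 2 := by
        rw [hN1, hv]
        simp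
        ring
      show (if k = i₀ then (1 : ℝ) else 0) - 2 / N * v k * v i₀ = q k
      rw [h1]
      have h2 : 2 / N * v k * (N / 2) = v k := by
        field_simp
      rw [h2, hv]
      simp

section basic

variable {R : Matrix (Fin n) (Fin n) ℝ} (h : Rf R)

include h

theorem abs_le (i j : Fin n) : |R i j| ≤ 1 := by
  have h1 := h.sq i i
  rw [if_pos rfl] at h1
  have h2 : R i j * R j i ≤ ∑ k, R i k * R k i :=
    Finset.single_le_sum (f := fun k => R i k * R k i)
      (fun k _ => by rw [h.sy k i]; exact mul_self_nonneg _) (Finset.mem_univ j)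
  rw [h1, h.sy j i] at h2
  exact abs_le_one_iff_mul_self_le_one.2 h2

/-- `R² = 1` -/
theorem mv_mv (ζ : V n) : R *ᵥ (R *ᵥ ζ) = ζ := by
  have h1 : R * R = 1 := by
    ext i j
    rw [Matrix.mul_apply, h.sq, Matrix.one_apply]
  rw [Matrix.mulVec_mulVec, h1, Matrix.one_mulVec]

theorem dot (ζ η : V n) : ∑ i, ζ i * (R *ᵥ η) i = ∑ i, (R *ᵥ ζ) i * η i := by
  simp only [Matrix.mulVec, dotProduct, Finset.mul_sum, Finset.sum_mul]
  rw [Finset.sum_comm]
  refine Finset.sum_congr rfl fun i _ => Finset.sum_congr rfl fun j _ => ?_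
  rw [h.sy j i]
  ring

theorem nr_mv (ζ : V n) : nr (R *ᵥ ζ) = nr ζ := by
  unfold nr
  congr 1
  have h2 := dot h ζ (R *ᵥ ζ)
  rw [mv_mv h] at h2
  simp only [pow_two]
  exact h2.symm

theorem wr_mv (hn : 1 ≤ n) (ζ : V n) : wr (R *ᵥ ζ) ≤ n * wr ζ := by
  have h1 : ∀ i, |(R *ᵥ ζ) i| ≤ ∑ j, |ζ j| := by
    intro i
    simp only [Matrix.mulVec, dotProduct]
    refine (Finset.abs_sum_le_sum_abs _ _).trans (Finset.sum_le_sum fun j _ => ?_)
    rw [abs_mul]
    exact mul_le_of_le_one_left (abs_nonneg _) (abs_le h i j)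
  unfold wr
  have h2 : ∑ i, |(R *ᵥ ζ) i| ≤ n * ∑ j, |ζ j| := by
    refine (Finset.sum_le_sum fun i _ => h1 i).trans ?_
    simp
  have h3 : (1 : ℝ) ≤ n := by exact_mod_cast hn
  rw [mul_add, mul_one]
  linarith

end basic

/-- The reflection about the centre of the cube. -/
def rho (R : Matrix (Fin n) (Fin n) ℝ) (x : V n) : V n :=
  (fun _ => 1 / 2) + R *ᵥ (x - fun _ => 1 / 2)

/-- The linear part. -/
def lin (R : Matrix (Fin n) (Fin n) ℝ) : V n →L[ℝ] V n :=
  LinearMap.toContinuousLinearMap (Matrix.toLin' R)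

theorem lin_apply (R : Matrix (Fin n) (Fin n) ℝ) (x : V n) : lin R x = R *ᵥ x := rfl

theorem rho_eq (R : Matrix (Fin n) (Fin n) ℝ) (x : V n) :
    rho R x = (fun _ => 1 / 2) + lin R (x - fun _ => 1 / 2) := rfl

theorem contDiff_rho (R : Matrix (Fin n) (Fin n) ℝ) : ContDiff ℝ ∞ (rho R) := by
  have h1 : rho R = fun x => (fun _ => 1 / 2) + lin R (x - fun _ => 1 / 2) := rfl
  rw [h1]
  exact contDiff_const.add ((lin R).contDiff.comp (contDiff_id.sub contDiff_const))

theorem hasFDerivAt_rho (R : Matrix (Fin n) (Fin n) ℝ) (x : V n) :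
    HasFDerivAt (rho R) (lin R) x := by
  have h1 : rho R = fun x => (fun _ => 1 / 2) + lin R (x - fun _ => 1 / 2) := rfl
  rw [h1]
  have h2 : HasFDerivAt (fun x : V n => x - fun _ => (1 / 2 : ℝ)) (ContinuousLinearMap.id ℝ (V n)) x :=
    (hasFDerivAt_id x).sub_const _
  have h3 := ((lin R).hasFDerivAt (x := x - fun _ => (1 / 2 : ℝ))).comp x h2
  have h4 := h3.const_add (fun _ => (1 / 2 : ℝ))
  rw [ContinuousLinearMap.comp_id] at h4
  exact h4

section inv

variable {R : Matrix (Fin n) (Fin n) ℝ} (h : Rf R)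

include h

theorem rho_rho (x : V n) : rho R (rho R x) = x := by
  unfold rho
  rw [add_sub_cancel_left, mv_mv h]
  ext i
  simp

/-- `rho` as a homeomorphism -/
def hom : V n ≃ₜ V n where
  toFun := rho R
  invFun := rho R
  left_inv := rho_rho h
  right_inv := rho_rho h
  continuous_toFun := (contDiff_rho R).continuous
  continuous_invFun := (contDiff_rho R).continuous

theorem emb : MeasurableEmbedding (rho R) := (hom h).measurableEmbedding

theorem mp : MeasurePreserving (rho R) (volume : Measure (V n)) volume := by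
  have h1 : R * R = 1 := by
    ext i j
    rw [Matrix.mul_apply, h.sq, Matrix.one_apply]
  have h2 : R.det * R.det = 1 := by
    rw [← Matrix.det_mul, h1, Matrix.det_one]
  have h3 : R.det ≠ 0 := by
    intro h0
    rw [h0] at h2
    norm_num at h2
  have h4 : |(R.det)⁻¹| = 1 := by
    rw [abs_inv]
    have h5 : |R.det| = 1 := by
      rw [← abs_mul_abs_self] at h2
      nlinarith [abs_nonneg R.det, sq_nonneg (|R.det| - 1)]
    rw [h5, inv_one]
  have h5 : MeasurePreserving (fun x : V n => R *ᵥ x) volume volume := by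
    refine ⟨(lin R).continuous.measurable, ?_⟩
    have h6 := Real.map_matrix_volume_pi_eq_smul_volume_pi h3
    rw [h4, ENNReal.ofReal_one, one_smul] at h6
    exact h6
  have h6 : MeasurePreserving (fun x : V n => x - fun _ => (1 / 2 : ℝ)) volume volume :=
    measurePreserving_sub_right volume _
  have h7 : MeasurePreserving (fun x : V n => (fun _ => (1 / 2 : ℝ)) + x) volume volume :=
    measurePreserving_add_left volume _
  exact h7.comp (h5.comp h6)

theorem integral_rho {F : Type*} [NormedAddCommGroup F] [NormedSpace ℝ F] (f : V n → F) :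
    ∫ x, f (rho R x) = ∫ x, f x := (mp h).integral_comp (emb h) f

theorem setIntegral_rho {F : Type*} [NormedAddCommGroup F] [NormedSpace ℝ F] (f : V n → F)
    (Ω : Set (V n)) : ∫ x in rho R ⁻¹' Ω, f (rho R x) = ∫ x in Ω, f x :=
  (mp h).setIntegral_preimage_emb (emb h) f Ω

/-- `rho` preserves the ball -/
theorem rho_mem_bal {x : V n} : rho R x ∈ bal n ↔ x ∈ bal n := by
  unfold bal
  simp only [Set.mem_ofPred_eq]
  have h1 : ∑ j, (rho R x j - 1 / 2) ^ 2 = ∑ j, (x j - 1 / 2) ^ 2 := by
    have h2 := nr_mv h (x - fun _ => (1 / 2 : ℝ))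
    unfold nr at h2
    have h3 : ∀ j, rho R x j - 1 / 2 = (R *ᵥ (x - fun _ => (1 / 2 : ℝ))) j := by
      intro j
      unfold rho
      simp
    have h4 : ∑ j, (rho R x j - 1 / 2) ^ 2 = ∑ j, (R *ᵥ (x - fun _ => (1 / 2 : ℝ))) j ^ 2 :=
      Finset.sum_congr rfl fun j _ => by rw [h3]
    rw [h4]
    have h5 := (Real.sqrt_inj (Finset.sum_nonneg fun j _ => sq_nonneg _)
      (Finset.sum_nonneg fun j _ => sq_nonneg _)).1 h2
    exact h5
  rw [h1]

end inv

end Vale.Agent.P088.LR.CF.H952
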