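import Vale.Agent.P088.H952.Rf

/-!
# P088, row CF_ROT, second part: transformation of `dv`, `bl`, `St2` and `ft`
-/

open MeasureTheory Set
open scoped ContDiff Matrix

noncomputable section

namespace Vale.Agent.P088.LR.CF.H952

open Vale.Agent.P088.LR Vale.Agent.P088.LR.CF

variable {n : ℕ}

theorem contDiff_pd {F : Type*} [NormedAddCommGroup F] [NormedSpace ℝ F] {f : V n → F}
    (hf : ContDiff ℝ ∞ f) (i : Fin n) : ContDiff ℝ ∞ (pd i f) := by
  have h1 : ContDiff ℝ ∞ (fderiv ℝ f) := hf.fderiv_right (m := ∞) (by simp)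
  exact h1.clm_apply contDiff_const

theorem lin_single (R : Matrix (Fin n) (Fin n) ℝ) (k : Fin n) :
    lin R (Pi.single k 1) = ∑ i, R i k • (Pi.single i (1 : ℝ) : V n) := by
  rw [lin_apply]
  ext j
  rw [Matrix.mulVec_single]
  simp [Finset.sum_apply, Pi.single_apply]

/-- chain rule -/
theorem pd_rho {F : Type*} [NormedAddCommGroup F] [NormedSpace ℝ F]
    (R : Matrix (Fin n) (Fin n) ℝ) {f : V n → F} {x : V n}
    (hf : DifferentiableAt ℝ f (rho R x)) (k : Fin n) :
    pd k (fun y => f (rho R y)) x = ∑ i, R i k • pd i f (rho R x) := by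
  have h1 : HasFDerivAt (fun y => f (rho R y)) ((fderiv ℝ f (rho R x)).comp (lin R)) x :=
    HasFDerivAt.comp x hf.hasFDerivAt (hasFDerivAt_rho R x)
  unfold pd
  rw [h1.fderiv, ContinuousLinearMap.comp_apply, lin_single, map_sum]
  exact Finset.sum_congr rfl fun i _ => map_smul _ _ _

theorem pd_rho_c (R : Matrix (Fin n) (Fin n) ℝ) {f : V n → ℂ} {x : V n}
    (hf : DifferentiableAt ℝ f (rho R x)) (k : Fin n) :
    pd k (fun y => f (rho R y)) x = ∑ i, (R i k : ℂ) * pd i f (rho R x) := by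
  rw [pd_rho R hf]
  exact Finset.sum_congr rfl fun i _ => Complex.real_smul

theorem pd_sum {f : Fin n → V n → ℂ} {x : V n} (hf : ∀ i, DifferentiableAt ℝ (f i) x)
    (c : Fin n → ℂ) (k : Fin n) :
    pd k (fun y => ∑ i, c i * f i y) x = ∑ i, c i * pd k (f i) x := by
  have h1 : HasFDerivAt (fun y => ∑ i, c i * f i y) (∑ i, c i • fderiv ℝ (f i) x) x := by
    refine HasFDerivAt.fun_sum fun i _ => ?_
    exact (hf i).hasFDerivAt.const_mul (c i)
  unfold pd
  rw [h1.fderiv, sum_apply]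
  exact Finset.sum_congr rfl fun i _ => rfl

/-- the algebraic identity -/
theorem alg_id (J s : Matrix (Fin n) (Fin n) ℝ) (p q : Fin n → ℂ) :
    ∑ i, ∑ j, (((J * s * Jᵀ) i j : ℝ) : ℂ) * p i * q j =
      ∑ a, ∑ b, (s a b : ℂ) * (∑ i, (J i a : ℂ) * p i) * ∑ j, (J j b : ℂ) * q j := by
  have h1 : ∀ i j, (((J * s * Jᵀ) i j : ℝ) : ℂ) = ∑ a, ∑ b, (J i a : ℂ) * s a b * J j b := by
    intro i j
    rw [Matrix.mul_apply]
    simp only [Matrix.mul_apply, Matrix.transpose_apply, Finset.sum_mul]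
    rw [Finset.sum_comm]
    push_cast
    rfl
  calc ∑ i, ∑ j, (((J * s * Jᵀ) i j : ℝ) : ℂ) * p i * q j
      = ∑ i, ∑ j, ∑ a, ∑ b, (J i a : ℂ) * s a b * J j b * p i * q j := by
        refine Finset.sum_congr rfl fun i _ => Finset.sum_congr rfl fun j _ => ?_
        rw [h1]
        simp only [Finset.sum_mul]
    _ = ∑ i, ∑ a, ∑ j, ∑ b, (J i a : ℂ) * s a b * J j b * p i * q j := by
        refine Finset.sum_congr rfl fun i _ => ?_
        rw [Finset.sum_comm]
    _ = ∑ a, ∑ i, ∑ b, ∑ j, (J i a : ℂ) * s a b * J j b * p i * q j := by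
        rw [Finset.sum_comm]
        refine Finset.sum_congr rfl fun a _ => Finset.sum_congr rfl fun i _ => ?_
        rw [Finset.sum_comm]
    _ = ∑ a, ∑ b, ∑ i, ∑ j, (J i a : ℂ) * s a b * J j b * p i * q j := by
        refine Finset.sum_congr rfl fun a _ => ?_
        rw [Finset.sum_comm]
    _ = _ := by
        refine Finset.sum_congr rfl fun a _ => Finset.sum_congr rfl fun b _ => ?_
        rw [mul_assoc, Finset.sum_mul_sum, Finset.mul_sum]
        refine Finset.sum_congr rfl fun i _ => ?_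
        rw [Finset.mul_sum]
        refine Finset.sum_congr rfl fun j _ => ?_
        ring

/-- The reflected tensor. -/
def tr (R : Matrix (Fin n) (Fin n) ℝ) (s : MF n) : MF n := fun x => R * s (rho R x) * R

section tr

variable {R : Matrix (Fin n) (Fin n) ℝ} (h : Rf R)

include h

theorem transpose_eq : Rᵀ = R := by
  ext i j
  rw [Matrix.transpose_apply, h.sy]

theorem mul_self_eq : R * R = 1 := by
  ext i j
  rw [Matrix.mul_apply, h.sq, Matrix.one_apply]

theorem tr_apply (s : MF n) (x : V n) (i j : Fin n) :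
    tr R s x i j = ∑ a, ∑ b, R i a * s (rho R x) a b * R j b := by
  unfold tr
  rw [Matrix.mul_apply]
  simp only [Matrix.mul_apply, Finset.sum_mul]
  rw [Finset.sum_comm]
  refine Finset.sum_congr rfl fun a _ => Finset.sum_congr rfl fun b _ => ?_
  rw [h.sy b j]

theorem tr_sc (σ : V n → ℝ) : tr R (sc σ) = sc fun x => σ (rho R x) := by
  funext x
  unfold tr sc
  rw [Matrix.mul_smul, Matrix.mul_one, Matrix.smul_mul, mul_self_eq h]

theorem smM_tr {s : MF n} (hs : SmM s) : SmM (tr R s) := by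
  intro i j
  have h1 : (fun x => tr R s x i j) = fun x => ∑ a, ∑ b, R i a * s (rho R x) a b * R j b := by
    funext x
    exact tr_apply h s x i j
  rw [h1]
  refine ContDiff.sum fun a _ => ContDiff.sum fun b _ => ?_
  exact (contDiff_const.mul ((hs a b).comp (contDiff_rho R))).mul contDiff_const

theorem symm_tr {s : MF n} (hs : ∀ x, (s x).IsSymm) (x : V n) : (tr R s x).IsSymm := by
  unfold tr Matrix.IsSymm
  rw [Matrix.transpose_mul, Matrix.transpose_mul, transpose_eq h, hs, Matrix.mul_assoc]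

/-- the flux -/
theorem flux_tr (s : MF n) {W : V n → ℂ} (hW : ContDiff ℝ ∞ W) (y : V n) (k : Fin n) :
    ∑ l, (tr R s y k l : ℂ) * pd l W y = ∑ i, (R k i : ℂ) *
      ∑ j, (s (rho R y) i j : ℂ) * pd j (fun x => W (rho R x)) (rho R y) := by
  have h1 : ∀ j, pd j (fun x => W (rho R x)) (rho R y) = ∑ l, (R l j : ℂ) * pd l W y := by
    intro j
    rw [pd_rho_c R ((hW.differentiable (by simp)) _), rho_rho h]
  simp only [h1, tr_apply h]
  push_cast
  simp only [Finset.sum_mul, Finset.mul_sum]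
  rw [Finset.sum_comm]
  refine Finset.sum_congr rfl fun i _ => ?_
  rw [Finset.sum_comm]
  refine Finset.sum_congr rfl fun j _ => Finset.sum_congr rfl fun l _ => ?_
  ring

/-- `div (s ∇ W)` -/
theorem dv_tr {s : MF n} (hs : SmM s) {W : V n → ℂ} (hW : ContDiff ℝ ∞ W) (y : V n) :
    dv (tr R s) W y = dv s (fun x => W (rho R x)) (rho R y) := by
  set F : Fin n → V n → ℂ := fun i x => ∑ j, (s x i j : ℂ) * pd j (fun x => W (rho R x)) x with hF
  have hWr : ContDiff ℝ ∞ fun x => W (rho R x) := hW.comp (contDiff_rho R)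
  have hFs : ∀ i, ContDiff ℝ ∞ (F i) := by
    intro i
    refine ContDiff.sum fun j _ => ?_
    exact (Complex.ofRealCLM.contDiff.comp (hs i j)).mul (contDiff_pd hWr j)
  have h1 : ∀ k, (fun y => ∑ l, (tr R s y k l : ℂ) * pd l W y) =
      fun y => ∑ i, (R k i : ℂ) * F i (rho R y) := by
    intro k
    funext y
    exact flux_tr h s hW y k
  unfold dv
  simp only [h1]
  have h2 : ∀ k, pd k (fun y => ∑ i, (R k i : ℂ) * F i (rho R y)) y =
      ∑ i, (R k i : ℂ) * ∑ m, (R m k : ℂ) * pd m (F i) (rho R y) := by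
    intro k
    rw [pd_sum (f := fun i y => F i (rho R y)) (fun i => (((hFs i).comp (contDiff_rho R)).differentiable
      (by simp)) y) (fun i => (R k i : ℂ)) k]
    refine Finset.sum_congr rfl fun i _ => ?_
    rw [pd_rho_c R (((hFs i).differentiable (by simp)) _)]
  simp only [h2]
  calc ∑ k, ∑ i, (R k i : ℂ) * ∑ m, (R m k : ℂ) * pd m (F i) (rho R y)
      = ∑ i, ∑ m, (∑ k, (R m k : ℂ) * R k i) * pd m (F i) (rho R y) := by
        simp only [Finset.mul_sum, Finset.sum_mul]
        rw [Finset.sum_comm]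
        refine Finset.sum_congr rfl fun i _ => ?_
        rw [Finset.sum_comm]
        refine Finset.sum_congr rfl fun m _ => Finset.sum_congr rfl fun k _ => ?_
        ring
    _ = ∑ i, ∑ m, (if m = i then (1 : ℂ) else 0) * pd m (F i) (rho R y) := by
        refine Finset.sum_congr rfl fun i _ => Finset.sum_congr rfl fun m _ => ?_
        congr 1
        have h3 := h.sq m i
        have h4 : ∑ k, (R m k : ℂ) * R k i = ((∑ k, R m k * R k i : ℝ) : ℂ) := by
          push_cast
          rfl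
        rw [h4, h3]
        split_ifs <;> simp
    _ = ∑ i, pd i (F i) (rho R y) := by
        refine Finset.sum_congr rfl fun i _ => ?_
        simp

theorem tr_sub (s₁ s₂ : MF n) (x : V n) :
    tr R s₂ x - tr R s₁ x = R * (s₂ (rho R x) - s₁ (rho R x)) * Rᵀ := by
  unfold tr
  rw [transpose_eq h, Matrix.mul_sub, Matrix.sub_mul]

/-- the orthogonality identity is invariant -/
theorem st2_tr {Ω : Set (V n)} {s₁ s₂ : MF n} (hs₁ : SmM s₁) (hs₂ : SmM s₂) (hst : St2 Ω s₁ s₂) :
    St2 (rho R ⁻¹' Ω) (tr R s₁) (tr R s₂) := by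
  intro U W hU hW h1 h2
  have e1 : ∀ x ∈ Ω, dv s₁ (fun x => U (rho R x)) x = 0 := by
    intro x hx
    have h3 := h1 (rho R x) (by rw [Set.mem_preimage, rho_rho h]; exact hx)
    rwa [dv_tr h hs₁ hU, rho_rho h] at h3
  have e2 : ∀ x ∈ Ω, dv s₂ (fun x => W (rho R x)) x = 0 := by
    intro x hx
    have h3 := h2 (rho R x) (by rw [Set.mem_preimage, rho_rho h]; exact hx)
    rwa [dv_tr h hs₂ hW, rho_rho h] at h3
  have h3 := hst (fun x => U (rho R x)) (fun x => W (rho R x)) (hU.comp (contDiff_rho R))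
    (hW.comp (contDiff_rho R)) e1 e2
  have h5 := setIntegral_rho h (fun x => ∑ i, ∑ j, ((s₂ x - s₁ x) i j : ℂ) *
    pd i (fun x => U (rho R x)) x * pd j (fun x => W (rho R x)) x) Ω
  unfold bl at h3 ⊢
  have h4 : ∀ y, (∑ i, ∑ j, ((tr R s₂ y - tr R s₁ y) i j : ℂ) * pd i U y * pd j W y) =
      ∑ i, ∑ j, ((s₂ (rho R y) - s₁ (rho R y)) i j : ℂ) * pd i (fun x => U (rho R x)) (rho R y) *
        pd j (fun x => W (rho R x)) (rho R y) := by
    intro y
    rw [tr_sub h, alg_id]
    refine Finset.sum_congr rfl fun a _ => Finset.sum_congr rfl fun b _ => ?_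
    rw [pd_rho_c R ((hU.differentiable (by simp)) _), pd_rho_c R ((hW.differentiable (by simp)) _),
      rho_rho h]
  simp only [h4]
  exact h5.trans h3

/-- the phase -/
def ph (R : Matrix (Fin n) (Fin n) ℝ) (ζ : V n) : ℂ :=
  ex (R *ᵥ ζ - ζ) (fun _ => 1 / 2)

omit h in
theorem norm_ex (ξ x : V n) : ‖ex ξ x‖ = 1 := by
  unfold ex
  have h1 : 2 * (Real.pi : ℂ) * Complex.I * ((∑ j, ξ j * x j : ℝ) : ℂ) =
      ((2 * Real.pi * ∑ j, ξ j * x j : ℝ) : ℂ) * Complex.I := by
    push_cast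
    ring
  rw [h1, Complex.norm_exp_ofReal_mul_I]

/-- Fourier transform of a reflected function -/
theorem ft_rho (f : V n → ℂ) (ζ : V n) :
    ft (fun x => f (rho R x)) ζ = ph R ζ * ft f (R *ᵥ ζ) := by
  unfold ft
  have h1 : ∀ x, f (rho R x) * ex (-ζ) x = (fun y => f y * ex (-ζ) (rho R y)) (rho R x) := by
    intro x
    show _ = f (rho R x) * ex (-ζ) (rho R (rho R x))
    rw [rho_rho h]
  have h2 : ∫ x, f (rho R x) * ex (-ζ) x = ∫ y, f y * ex (-ζ) (rho R y) := by
    simp only [h1]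
    exact integral_rho h fun y => f y * ex (-ζ) (rho R y)
  rw [h2, ← integral_const_mul]
  congr 1
  funext y
  have h3 : ex (-ζ) (rho R y) = ph R ζ * ex (-(R *ᵥ ζ)) y := by
    unfold ph ex
    rw [← Complex.exp_add]
    congr 1
    have h4 : ∑ j, (-ζ) j * rho R y j = ∑ j, (R *ᵥ ζ - ζ) j * (1 / 2) + ∑ j, (-(R *ᵥ ζ)) j * y j := by
      have h5 := dot h ζ (y - fun _ => (1 / 2 : ℝ))
      have h6 : ∀ j, (-ζ) j * rho R y j =
          -(ζ j * (1 / 2)) - ζ j * (R *ᵥ (y - fun _ => (1 / 2 : ℝ))) j := by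
        intro j
        unfold rho
        simp only [Pi.neg_apply, Pi.add_apply]
        ring
      rw [Finset.sum_congr rfl fun j _ => h6 j, Finset.sum_sub_distrib, h5,
        ← Finset.sum_sub_distrib, ← Finset.sum_add_distrib]
      refine Finset.sum_congr rfl fun j _ => ?_
      simp only [Pi.sub_apply, Pi.neg_apply]
      ring
    rw [h4]
    push_cast
    ring
  rw [h3]
  ring

end tr

end Vale.Agent.P088.LR.CF.H952
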